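import Vale.Agent.P328.Local

/-!
# P328: the variance inequality for `3`-row tables implies the spectral statement

`ThreeRowIneq ρ γ`: for all functions `s_0, s_1, s_2` of the rows,
`Var (s_0 + s_1 + s_2) ≤ 2 ∑_i Var s_i` on the tables with margins `ρ`, `γ`
(multiplied by `N²`, `N` the number of tables).
-/

namespace Vale.Agent.P328

open Finset
open Vale.Agent.P335

set_option linter.unusedSectionVars false
set_option linter.unusedVariables false

variable {D : Type*} [Fintype D]

/-- The variance inequality on `3`-row tables. -/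
def ThreeRowIneq (ρ : Fin 3 → ℕ) (γ : D → ℕ) : Prop :=
  ∀ s : Fin 3 → (D → ℕ) → ℝ,
    (Fintype.card (Tables ρ γ) : ℝ) *
        ∑ X : Tables ρ γ, (∑ i, s i (X.1 i)) * (∑ i, s i (X.1 i)) -
      (∑ X : Tables ρ γ, ∑ i, s i (X.1 i)) * (∑ X : Tables ρ γ, ∑ i, s i (X.1 i)) ≤
    2 * ∑ i, ((Fintype.card (Tables ρ γ) : ℝ) * ∑ X : Tables ρ γ, s i (X.1 i) * s i (X.1 i) -
      (∑ X : Tables ρ γ, s i (X.1 i)) * (∑ X : Tables ρ γ, s i (X.1 i)))

open Classical in
/-- A function of the row `i` that represents `avg (row i) F`. -/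
noncomputable def rowRep {ρ : Fin 3 → ℕ} {γ : D → ℕ} (F : Tables ρ γ → ℝ) (i : Fin 3) (v : D → ℕ) : ℝ :=
  if h : ∃ X : Tables ρ γ, X.1 i = v then avg (fun y : Tables ρ γ => y.1 i) F h.choose else 0

lemma rowRep_apply {ρ : Fin 3 → ℕ} {γ : D → ℕ} (F : Tables ρ γ → ℝ) (i : Fin 3) (X : Tables ρ γ) :
    rowRep F i (X.1 i) = avg (fun y : Tables ρ γ => y.1 i) F X := by
  classical
  have h : ∃ Y : Tables ρ γ, Y.1 i = X.1 i := ⟨X, rfl⟩
  unfold rowRep
  rw [dif_pos h]
  exact avg_congr _ _ h.choose_spec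

/-- The variance inequality implies the spectral statement. -/
theorem spec_of_ineq {ρ : Fin 3 → ℕ} {γ : D → ℕ} (h : ThreeRowIneq ρ γ) : ThreeRowSpec ρ γ := by
  intro F μ hF heq
  classical
  by_cases hμ3 : μ = 3
  · exact Or.inr hμ3
  left
  -- the sum of `F` vanishes
  have hsum : ∑ x, F x = 0 := by
    have h1 : ∑ x, ∑ i, avg (fun y : Tables ρ γ => y.1 i) F x = 3 * ∑ x, F x := by
      rw [Finset.sum_comm]
      simp only [sum_fibre_avg]
      simp
    have h2 : ∑ x, ∑ i, avg (fun y : Tables ρ γ => y.1 i) F x = μ * ∑ x, F x := by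
      rw [Finset.mul_sum]
      exact Finset.sum_congr rfl (fun x _ => heq x)
    have h3 : (μ - 3) * ∑ x, F x = 0 := by
      rw [sub_mul, ← h2, h1]
      ring
    rcases mul_eq_zero.mp h3 with h4 | h4
    · exact absurd (by linarith) hμ3
    · exact h4
  have hi := h (rowRep F)
  simp only [rowRep_apply] at hi
  have hS : ∀ i : Fin 3, ∑ X : Tables ρ γ, avg (fun y : Tables ρ γ => y.1 i) F X = 0 := by
    intro i
    rw [sum_fibre_avg]
    exact hsum
  have hG : ∑ X : Tables ρ γ, ∑ i, avg (fun y : Tables ρ γ => y.1 i) F X = 0 := by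
    rw [Finset.sum_comm]
    simp [hS]
  simp only [hS, hG, mul_zero, sub_zero] at hi
  simp only [heq] at hi
  -- the squares
  have hnorm : ∀ i : Fin 3, ∑ X : Tables ρ γ, avg (fun y : Tables ρ γ => y.1 i) F X *
      avg (fun y : Tables ρ γ => y.1 i) F X = dot F (avg (fun y : Tables ρ γ => y.1 i) F) := by
    intro i
    have e1 := dot_avg_left (fun y : Tables ρ γ => y.1 i) F (avg (fun y : Tables ρ γ => y.1 i) F)
    rw [avg_avg] at e1
    exact e1
  have hsumnorm : ∑ i : Fin 3, dot F (avg (fun y : Tables ρ γ => y.1 i) F) = μ * dot F F := by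
    simp only [dot]
    rw [Finset.sum_comm, Finset.mul_sum]
    refine Finset.sum_congr rfl (fun x _ => ?_)
    rw [← Finset.mul_sum, heq x]
    ring
  have hpos : 0 < dot F F := by
    have h0 := dot_self_nonneg F
    rcases h0.lt_or_eq with h1 | h1
    · exact h1
    · exfalso
      apply hF
      funext x
      exact dot_self_eq_zero h1.symm x
  have hN : 0 < (Fintype.card (Tables ρ γ) : ℝ) := by
    have hne : Nonempty (Tables ρ γ) := by
      by_contra hne
      apply hF
      funext x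
      exact absurd ⟨x⟩ hne
    exact_mod_cast Fintype.card_pos
  have hL : ∑ X : Tables ρ γ, (μ * F X) * (μ * F X) = μ * μ * dot F F := by
    simp only [dot, Finset.mul_sum]
    exact Finset.sum_congr rfl (fun x _ => by ring)
  rw [hL] at hi
  have hR : ∑ i : Fin 3, ((Fintype.card (Tables ρ γ) : ℝ) *
      ∑ X : Tables ρ γ, avg (fun y : Tables ρ γ => y.1 i) F X *
        avg (fun y : Tables ρ γ => y.1 i) F X) =
      (Fintype.card (Tables ρ γ) : ℝ) * (μ * dot F F) := by
    rw [← hsumnorm, Finset.mul_sum]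
    exact Finset.sum_congr rfl (fun i _ => by rw [hnorm i])
  rw [hR] at hi
  have h5 : (Fintype.card (Tables ρ γ) : ℝ) * dot F F * (μ * (μ - 2)) ≤ 0 := by
    nlinarith [hi]
  have h6 : 0 < (Fintype.card (Tables ρ γ) : ℝ) * dot F F := mul_pos hN hpos
  have h7 : μ * (μ - 2) ≤ 0 := by
    by_contra hc
    push Not at hc
    nlinarith [mul_pos h6 hc]
  nlinarith [h7, sq_nonneg μ, sq_nonneg (μ - 2)]

end Vale.Agent.P328
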