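import Vale.Agent.P328.Inst
import Vale.Agent.P328.Ineq

/-!
# P328: from the list check to the variance inequality

`tabsL g ρ₀ ρ₁ ρ₂` enumerates exactly the tables with the given margins.  For a general column type
`D` and column sums `γ`, the columns with `γ j ≠ 0` are listed by `l`; the tables with margins `ρ`, `γ`
are in bijection with `tabsL (l.map γ) (ρ 0) (ρ 1) (ρ 2)`.
-/

namespace Vale.Agent.P328

open Finset
open Vale.Agent.P335

set_option linter.unusedSectionVars false
set_option linter.unusedVariables false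

lemma mem_statesK {k ρ : ℕ} {u : List ℕ} : u ∈ statesK k ρ ↔ u.length = k ∧ u.sum = ρ := by
  induction k generalizing ρ u with
  | zero =>
    simp only [statesK]
    split_ifs with h
    · subst h
      simp only [List.mem_singleton]
      constructor
      · rintro rfl
        simp
      · rintro ⟨h1, -⟩
        exact List.length_eq_zero_iff.mp h1
    · simp only [List.not_mem_nil, false_iff, not_and]
      intro h1 h2
      rw [List.length_eq_zero_iff.mp h1] at h2
      simp at h2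
      exact h h2.symm
  | succ k ih =>
    simp only [statesK, List.mem_flatMap, List.mem_range, List.mem_map]
    constructor
    · rintro ⟨a, ha, v, hv, rfl⟩
      obtain ⟨h1, h2⟩ := ih.mp hv
      refine ⟨by simp [h1], ?_⟩
      simp only [List.sum_cons, h2]
      omega
    · rintro ⟨h1, h2⟩
      cases u with
      | nil => simp at h1
      | cons a v =>
        simp only [List.length_cons, List.sum_cons, add_left_inj] at h1 h2
        exact ⟨a, by omega, v, ih.mpr ⟨h1, by omega⟩, rfl⟩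

lemma nodup_statesK (k ρ : ℕ) : (statesK k ρ).Nodup := by
  induction k generalizing ρ with
  | zero =>
    simp only [statesK]
    split_ifs <;> simp
  | succ k ih =>
    simp only [statesK]
    refine List.nodup_flatMap.mpr ⟨fun a _ => (ih _).map (List.cons_injective), ?_⟩
    refine List.nodup_range.pairwise_of_forall_ne (fun a _ b _ hab => ?_)
    intro u hu hv
    obtain ⟨v, _, rfl⟩ := List.mem_map.mp hu
    obtain ⟨w, _, hw⟩ := List.mem_map.mp hv
    have := (List.cons.inj hw).1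
    exact hab this.symm

lemma mem_tabsL {g : List ℕ} {ρ₀ ρ₁ ρ₂ : ℕ} {t : Trip} :
    t ∈ tabsL g ρ₀ ρ₁ ρ₂ ↔
      (t.1.length = g.length ∧ t.1.sum = ρ₀) ∧ (t.2.1.length = g.length ∧ t.2.1.sum = ρ₁) ∧
        (t.2.2.length = g.length ∧ t.2.2.sum = ρ₂) ∧ add3 t.1 t.2.1 t.2.2 = g := by
  obtain ⟨a, b, c⟩ := t
  simp only [tabsL, List.mem_filter, List.pair_mem_product, mem_statesK, beq_iff_eq]
  tauto

lemma nodup_tabsL (g : List ℕ) (ρ₀ ρ₁ ρ₂ : ℕ) : (tabsL g ρ₀ ρ₁ ρ₂).Nodup := by
  unfold tabsL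
  refine List.Nodup.filter _ ?_
  exact (nodup_statesK _ _).product ((nodup_statesK _ _).product (nodup_statesK _ _))

lemma add3_map {D : Type*} (l : List D) (a b c : D → ℕ) :
    add3 (l.map a) (l.map b) (l.map c) = l.map (fun j => a j + (b j + c j)) := by
  induction l with
  | nil => rfl
  | cons j l ih =>
    unfold add3 at ih ⊢
    simp only [List.map_cons, List.zipWith_cons_cons, ih]

section Unlist

variable {D : Type*} [DecidableEq D]

/-- The function on the columns given by a list of values along `l`, zero off `l`. -/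
def unl (l : List D) (u : List ℕ) (j : D) : ℕ := u.getD (l.idxOf j) 0

lemma map_unl {l : List D} (hl : l.Nodup) {u : List ℕ} (hu : u.length = l.length) :
    l.map (unl l u) = u := by
  refine List.ext_getElem (by simp [hu]) (fun i h1 h2 => ?_)
  simp only [List.getElem_map, unl]
  have hi : i < l.length := by simpa using h1
  rw [hl.idxOf_getElem i hi]
  exact List.getD_eq_getElem _ _ h2

lemma unl_of_not_mem {l : List D} {u : List ℕ} (hu : u.length = l.length) {j : D} (hj : j ∉ l) :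
    unl l u j = 0 := by
  unfold unl
  rw [List.idxOf_eq_length_iff.mpr hj, ← hu]
  simp

lemma unl_map {l : List D} {v : D → ℕ} (hv : ∀ j, j ∉ l → v j = 0) : unl l (l.map v) = v := by
  funext j
  by_cases hj : j ∈ l
  · have hlt : l.idxOf j < l.length := List.idxOf_lt_length_of_mem hj
    unfold unl
    rw [List.getD_eq_getElem _ _ (by simpa using hlt)]
    simp [List.getElem_idxOf hlt]
  · rw [unl_of_not_mem (by simp) hj, hv j hj]

variable [Fintype D]

lemma sum_eq_list {l : List D} (hl : l.Nodup) {v : D → ℕ} (hv : ∀ j, j ∉ l → v j = 0) :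
    ∑ j, v j = (l.map v).sum := by
  rw [← List.sum_toFinset v hl]
  symm
  refine Finset.sum_subset (Finset.subset_univ _) (fun j _ hj => hv j ?_)
  simpa using hj

variable {ρ : Fin 3 → ℕ} {γ : D → ℕ} {l : List D}

/-- The triple of lists of a table. -/
def Phi (l : List D) (X : Tables ρ γ) : Trip :=
  (l.map (X.1 0), l.map (X.1 1), l.map (X.1 2))

lemma table_zero (hmem : ∀ j, j ∈ l ↔ γ j ≠ 0) (X : Tables ρ γ) (i : Fin 3) {j : D} (hj : j ∉ l) :
    X.1 i j = 0 := by
  have h0 : γ j = 0 := by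
    by_contra h
    exact hj ((hmem j).mpr h)
  have h1 : X.1 i j ≤ ∑ k, X.1 k j :=
    Finset.single_le_sum (f := fun k => X.1 k j) (fun _ _ => Nat.zero_le _) (Finset.mem_univ i)
  rw [X.2.2 j, h0] at h1
  omega

lemma Phi_mem (hl : l.Nodup) (hmem : ∀ j, j ∈ l ↔ γ j ≠ 0) (X : Tables ρ γ) :
    Phi l X ∈ tabsL (l.map γ) (ρ 0) (ρ 1) (ρ 2) := by
  have hs : ∀ i, (l.map (X.1 i)).sum = ρ i := by
    intro i
    rw [← sum_eq_list hl (fun j hj => table_zero hmem X i hj)]
    exact X.2.1 i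
  refine mem_tabsL.mpr ⟨⟨by simp [Phi], hs 0⟩, ⟨by simp [Phi], hs 1⟩, ⟨by simp [Phi], hs 2⟩, ?_⟩
  simp only [Phi]
  rw [add3_map]
  refine List.map_congr_left (fun j _ => ?_)
  have := X.2.2 j
  rw [Fin.sum_univ_three] at this
  omega

lemma Phi_unl (hmem : ∀ j, j ∈ l ↔ γ j ≠ 0) (X : Tables ρ γ) :
    unl l (Phi l X).1 = X.1 0 ∧ unl l (Phi l X).2.1 = X.1 1 ∧ unl l (Phi l X).2.2 = X.1 2 :=
  ⟨unl_map (fun _ hj => table_zero hmem X 0 hj), unl_map (fun _ hj => table_zero hmem X 1 hj),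
    unl_map (fun _ hj => table_zero hmem X 2 hj)⟩

lemma Phi_inj (hmem : ∀ j, j ∈ l ↔ γ j ≠ 0) : Function.Injective (Phi (ρ := ρ) (γ := γ) l) := by
  intro X Y h
  apply Subtype.ext
  obtain ⟨a0, a1, a2⟩ := Phi_unl hmem X
  obtain ⟨b0, b1, b2⟩ := Phi_unl hmem Y
  funext i
  rw [h] at a0 a1 a2
  fin_cases i
  · exact a0.symm.trans b0
  · exact a1.symm.trans b1
  · exact a2.symm.trans b2

lemma Phi_surj (hl : l.Nodup) (hmem : ∀ j, j ∈ l ↔ γ j ≠ 0) {t : Trip}
    (ht : t ∈ tabsL (l.map γ) (ρ 0) (ρ 1) (ρ 2)) : ∃ X : Tables ρ γ, Phi l X = t := by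
  obtain ⟨⟨l0, s0⟩, ⟨l1, s1⟩, ⟨l2, s2⟩, hadd⟩ := mem_tabsL.mp ht
  simp only [List.length_map] at l0 l1 l2
  let x : Fin 3 → D → ℕ := ![unl l t.1, unl l t.2.1, unl l t.2.2]
  have hz : ∀ (u : List ℕ), u.length = l.length → ∀ j, j ∉ l → unl l u j = 0 :=
    fun u hu j hj => unl_of_not_mem hu hj
  have hrow : ∀ u : List ℕ, u.length = l.length → ∑ j, unl l u j = u.sum := by
    intro u hu
    rw [sum_eq_list hl (hz u hu), map_unl hl hu]
  have hcol : ∀ j, unl l t.1 j + (unl l t.2.1 j + unl l t.2.2 j) = γ j := by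
    intro j
    by_cases hj : j ∈ l
    · have h1 := add3_map l (unl l t.1) (unl l t.2.1) (unl l t.2.2)
      rw [map_unl hl l0, map_unl hl l1, map_unl hl l2, hadd] at h1
      have h2 := List.map_inj_left.mp h1 j hj
      exact h2.symm
    · rw [hz _ l0 j hj, hz _ l1 j hj, hz _ l2 j hj]
      have : γ j = 0 := by
        by_contra h
        exact hj ((hmem j).mpr h)
      omega
  have htab : IsTable ρ γ x := by
    refine ⟨fun i => ?_, fun j => ?_⟩
    · fin_cases i
      · show ∑ j, unl l t.1 j = ρ 0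
        rw [hrow _ l0, s0]
      · show ∑ j, unl l t.2.1 j = ρ 1
        rw [hrow _ l1, s1]
      · show ∑ j, unl l t.2.2 j = ρ 2
        rw [hrow _ l2, s2]
    · rw [Fin.sum_univ_three]
      show unl l t.1 j + unl l t.2.1 j + unl l t.2.2 j = γ j
      rw [← hcol j]
      ring
  refine ⟨⟨x, htab⟩, ?_⟩
  obtain ⟨a, b, c⟩ := t
  simp only [Phi]
  show (l.map (unl l a), l.map (unl l b), l.map (unl l c)) = (a, b, c)
  rw [map_unl hl l0, map_unl hl l1, map_unl hl l2]

lemma sum_tabs (hl : l.Nodup) (hmem : ∀ j, j ∈ l ↔ γ j ≠ 0) (φ : Trip → ℝ) :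
    ((tabsL (l.map γ) (ρ 0) (ρ 1) (ρ 2)).map φ).sum = ∑ X : Tables ρ γ, φ (Phi l X) := by
  classical
  rw [← List.sum_toFinset φ (nodup_tabsL _ _ _ _)]
  have himg : (tabsL (l.map γ) (ρ 0) (ρ 1) (ρ 2)).toFinset = univ.image (Phi (ρ := ρ) (γ := γ) l) := by
    ext t
    simp only [List.mem_toFinset, Finset.mem_image, Finset.mem_univ, true_and]
    constructor
    · exact fun ht => Phi_surj hl hmem ht
    · rintro ⟨X, rfl⟩
      exact Phi_mem hl hmem X
  rw [himg, Finset.sum_image (fun X _ Y _ h => Phi_inj hmem h)]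

/-- The check for the list of tables gives the variance inequality. -/
theorem ineq_of_check (hl : l.Nodup) (hmem : ∀ j, j ∈ l ↔ γ j ≠ 0)
    (hc : formCheck (tabsL (l.map γ) (ρ 0) (ρ 1) (ρ 2)) = true) : ThreeRowIneq ρ γ := by
  intro s
  have h := form_nonneg hc (fun u => s 0 (unl l u)) (fun u => s 1 (unl l u)) (fun u => s 2 (unl l u))
  have hlen : (((tabsL (l.map γ) (ρ 0) (ρ 1) (ρ 2)).length : ℕ) : ℝ) =
      (Fintype.card (Tables ρ γ) : ℝ) := by
    have h1 := sum_tabs (ρ := ρ) (γ := γ) hl hmem (fun _ => (1 : ℝ))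
    simpa using h1
  simp only [sum_tabs hl hmem, hlen] at h
  have e : ∀ X : Tables ρ γ, s 0 (unl l (Phi l X).1) = s 0 (X.1 0) ∧
      s 1 (unl l (Phi l X).2.1) = s 1 (X.1 1) ∧ s 2 (unl l (Phi l X).2.2) = s 2 (X.1 2) := by
    intro X
    obtain ⟨a0, a1, a2⟩ := Phi_unl hmem X
    rw [a0, a1, a2]
    exact ⟨rfl, rfl, rfl⟩
  simp only [fun X => (e X).1, fun X => (e X).2.1, fun X => (e X).2.2] at h
  simp only [Fin.sum_univ_three]
  linarith [h]

end Unlist

end Vale.Agent.P328
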