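import Vale.Agent.P328.Gap

/-!
# P328: the row-pair resampling chain and its mixing

One step from the table `X`: choose an ordered pair `a ≠ b` of rows uniformly at random and replace
the rows `a`, `b` by a uniform random choice among all tables that agree with `X` outside these rows.
-/

namespace Vale.Agent.P328

open Finset
open Vale.Agent.P335

set_option linter.unusedSectionVars false
set_option linter.unusedVariables false

section Abstract

variable {Ω : Type*} [Fintype Ω] [DecidableEq Ω]

/-- Rows of powers of a stochastic matrix sum to one. -/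
lemma pow_row_sum (P : Matrix Ω Ω ℝ) (hrow : ∀ G, ∑ H, P G H = 1) (t : ℕ) (G : Ω) :
    ∑ H, (P ^ t) G H = 1 := by
  induction t generalizing G with
  | zero =>
    simp [Matrix.one_apply]
  | succ k ih =>
    have : ∀ H, (P ^ (k + 1)) G H = ∑ K, P G K * (P ^ k) K H := by
      intro H
      rw [pow_succ', Matrix.mul_apply]
    simp only [this]
    rw [Finset.sum_comm]
    simp only [← Finset.mul_sum, ih, mul_one, hrow]

/-- The abstract bound: a symmetric stochastic matrix contracting mean-zero functions by `1 - γ`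
satisfies the `L²` bound for total variation. -/
theorem tv_bound (P : Matrix Ω Ω ℝ) (γ : ℝ) (hγ1 : γ ≤ 1)
    (hsym : ∀ G H, P G H = P H G) (hrow : ∀ G, ∑ H, P G H = 1)
    (hcontr : ∀ f : Ω → ℝ, ∑ G, f G = 0 → dot (P.mulVec f) (P.mulVec f) ≤ (1 - γ) * dot f f)
    (t : ℕ) (G : Ω) :
    ((1 / 2) * ∑ H, |(P ^ t) G H - 1 / (Fintype.card Ω : ℝ)|) ^ 2 ≤
      (1 / 4) * (Fintype.card Ω : ℝ) * (1 - γ) ^ t := by
  classical
  have hNpos : 0 < Fintype.card Ω := Fintype.card_pos_iff.mpr ⟨G⟩
  have hN : (0 : ℝ) < (Fintype.card Ω : ℝ) := by exact_mod_cast hNpos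
  set N : ℝ := (Fintype.card Ω : ℝ) with hNdef
  let v : ℕ → Ω → ℝ := fun k H => (P ^ k) G H - 1 / N
  have hsum : ∀ k, ∑ H, v k H = 0 := by
    intro k
    simp only [v, Finset.sum_sub_distrib, pow_row_sum P hrow, Finset.sum_const, Finset.card_univ,
      nsmul_eq_mul]
    field_simp
    simp [hNdef]
  have hstep : ∀ k, v (k + 1) = P.mulVec (v k) := by
    intro k
    funext H
    simp only [v, Matrix.mulVec, dotProduct]
    have h1 : (P ^ (k + 1)) G H = ∑ K, (P ^ k) G K * P K H := by
      rw [pow_succ, Matrix.mul_apply]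
    have h2 : ∑ K, P H K * ((P ^ k) G K - 1 / N) =
        ∑ K, (P ^ k) G K * P K H - (1 / N) * ∑ K, P H K := by
      rw [Finset.mul_sum, ← Finset.sum_sub_distrib]
      refine Finset.sum_congr rfl (fun K _ => ?_)
      rw [hsym H K]; ring
    rw [h2, hrow H, h1]; ring
  have hdec : ∀ k, dot (v k) (v k) ≤ (1 - γ) ^ k := by
    intro k
    induction k with
    | zero =>
      have : dot (v 0) (v 0) = 1 - 1 / N := by
        simp only [dot, v, pow_zero, Matrix.one_apply]
        have h1 : ∀ H, ((if G = H then (1 : ℝ) else 0) - 1 / N) * ((if G = H then (1 : ℝ) else 0) - 1 / N)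
            = (if G = H then (1 : ℝ) else 0) * (1 - 2 / N) + 1 / N ^ 2 := by
          intro H
          split_ifs <;> field_simp <;> ring
        simp only [h1, Finset.sum_add_distrib, ← Finset.sum_mul, Finset.sum_ite_eq,
          Finset.mem_univ, if_true, Finset.sum_const, Finset.card_univ, nsmul_eq_mul]
        rw [← hNdef]
        field_simp
        ring
      rw [this]
      have : 0 < 1 / N := by positivity
      simp only [pow_zero]
      linarith
    | succ k ih =>
      rw [hstep k]
      have h1 := hcontr (v k) (hsum k)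
      have h2 : 0 ≤ 1 - γ := by linarith
      calc _ ≤ (1 - γ) * dot (v k) (v k) := h1
        _ ≤ (1 - γ) * (1 - γ) ^ k := mul_le_mul_of_nonneg_left ih h2
        _ = (1 - γ) ^ (k + 1) := by ring
  have hcs : (∑ H, |v t H|) ^ 2 ≤ N * dot (v t) (v t) := by
    have := sq_sum_le_card_mul_sum_sq (s := (univ : Finset Ω)) (f := fun H => |v t H|)
    simp only [sq_abs, Finset.card_univ] at this
    simpa [dot, sq, hNdef] using this
  have hfin := hdec t
  calc _ = (1 / 4) * (∑ H, |v t H|) ^ 2 := by ring
    _ ≤ (1 / 4) * (N * dot (v t) (v t)) := by linarith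
    _ ≤ (1 / 4) * (N * (1 - γ) ^ t) := by
        have := mul_le_mul_of_nonneg_left hfin hN.le
        linarith
    _ = _ := by ring

end Abstract

variable {R C : Type*} [Fintype R] [Fintype C] [DecidableEq R] {r : R → ℕ} {c : C → ℕ}

/-- The tables that agree with `X` outside the rows `a`, `b`. -/
noncomputable def pairFibre (a b : R) (X : Tables r c) : Finset (Tables r c) :=
  univ.filter (fun Y => lab a b Y.1 = lab a b X.1)

/-- Resampling the rows `a`, `b` of `X`: the uniform law on `pairFibre a b X`. -/
noncomputable def resample (a b : R) (X Y : Tables r c) : ℝ :=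
  if Y ∈ pairFibre a b X then 1 / ((pairFibre a b X).card : ℝ) else 0

/-- The transition matrix of the row-pair chain: choose an ordered pair of distinct rows uniformly,
then resample these two rows. -/
noncomputable def rowChain (r : R → ℕ) (c : C → ℕ) : Matrix (Tables r c) (Tables r c) ℝ :=
  fun X Y => (1 / ((Fintype.card R : ℝ) * ((Fintype.card R : ℝ) - 1))) *
    ∑ a, ∑ b, if a ≠ b then resample a b X Y else 0

lemma pairFibre_card_pos (a b : R) (X : Tables r c) : 0 < ((pairFibre a b X).card : ℝ) := by
  have : 0 < (pairFibre a b X).card :=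
    Finset.card_pos.mpr ⟨X, Finset.mem_filter.mpr ⟨Finset.mem_univ _, rfl⟩⟩
  exact_mod_cast this

lemma resample_sum (a b : R) (X : Tables r c) (g : Tables r c → ℝ) :
    ∑ Y, resample a b X Y * g Y = avg (tlab r c a b) g X := by
  rw [avg_apply' (tlab r c a b) g X]
  have h : ∀ Y, resample a b X Y * g Y =
      if Y ∈ pairFibre a b X then g Y / ((pairFibre a b X).card : ℝ) else 0 := by
    intro Y
    unfold resample
    split_ifs
    · ring
    · simp
  simp only [h]
  rw [← Finset.sum_filter]
  have e : univ.filter (fun Y => Y ∈ pairFibre a b X) = pairFibre a b X := by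
    ext Y
    simp
  rw [e, ← Finset.sum_div]
  rfl

lemma resample_row (a b : R) (X : Tables r c) : ∑ Y, resample a b X Y = 1 := by
  have h := resample_sum a b X (fun _ => 1)
  simp only [mul_one] at h
  rw [h, avg_apply']
  simp only [Finset.sum_const, nsmul_eq_mul, mul_one]
  refine div_self ?_
  exact (pairFibre_card_pos a b X).ne'

lemma resample_symm (a b : R) (X Y : Tables r c) : resample a b X Y = resample a b Y X := by
  unfold resample pairFibre
  by_cases h : lab a b Y.1 = lab a b X.1
  · simp only [Finset.mem_filter, Finset.mem_univ, true_and, h, if_true]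
  · have h' : ¬ lab a b X.1 = lab a b Y.1 := fun h2 => h h2.symm
    simp [h, h']

lemma resample_nonneg (a b : R) (X Y : Tables r c) : 0 ≤ resample a b X Y := by
  unfold resample
  split_ifs
  · positivity
  · exact le_rfl

/-- The number of ordered pairs of distinct rows. -/
lemma sum_ne_one (hR : 2 ≤ Fintype.card R) :
    (∑ a : R, ∑ b : R, if a ≠ b then (1 : ℝ) else 0) =
      (Fintype.card R : ℝ) * ((Fintype.card R : ℝ) - 1) := by
  have h : ∀ a : R, (∑ b : R, if a ≠ b then (1 : ℝ) else 0) = (Fintype.card R : ℝ) - 1 := by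
    intro a
    have h1 : ∀ b : R, (if a ≠ b then (1 : ℝ) else 0) = 1 - if a = b then 1 else 0 := by
      intro b
      by_cases hab : a = b <;> simp [hab]
    simp only [h1, Finset.sum_sub_distrib, Finset.sum_const, Finset.card_univ, nsmul_eq_mul,
      mul_one, Finset.sum_ite_eq, Finset.mem_univ, if_true]
  simp only [h, Finset.sum_const, Finset.card_univ, nsmul_eq_mul]

lemma pairs_pos (hR : 2 ≤ Fintype.card R) :
    0 < (Fintype.card R : ℝ) * ((Fintype.card R : ℝ) - 1) := by
  have h : (2 : ℝ) ≤ (Fintype.card R : ℝ) := by exact_mod_cast hR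
  nlinarith

lemma rowChain_row (hR : 2 ≤ Fintype.card R) (X : Tables r c) : ∑ Y, rowChain r c X Y = 1 := by
  have hM := pairs_pos hR
  unfold rowChain
  rw [← Finset.mul_sum]
  have h : ∑ Y, ∑ a, ∑ b, (if a ≠ b then resample a b X Y else 0) =
      ∑ a : R, ∑ b : R, if a ≠ b then (1 : ℝ) else 0 := by
    rw [Finset.sum_comm]
    refine Finset.sum_congr rfl (fun a _ => ?_)
    rw [Finset.sum_comm]
    refine Finset.sum_congr rfl (fun b _ => ?_)
    split_ifs
    · exact resample_row a b X
    · simp
  rw [h, sum_ne_one hR]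
  exact one_div_mul_cancel hM.ne'

lemma rowChain_symm (X Y : Tables r c) : rowChain r c X Y = rowChain r c Y X := by
  unfold rowChain
  congr 1
  refine Finset.sum_congr rfl (fun a _ => Finset.sum_congr rfl (fun b _ => ?_))
  rw [resample_symm]

lemma rowChain_nonneg (hR : 2 ≤ Fintype.card R) (X Y : Tables r c) : 0 ≤ rowChain r c X Y := by
  have hM := pairs_pos hR
  unfold rowChain
  refine mul_nonneg (by positivity) ?_
  refine Finset.sum_nonneg (fun a _ => Finset.sum_nonneg (fun b _ => ?_))
  split_ifs
  · exact resample_nonneg _ _ _ _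
  · exact le_rfl

lemma rowChain_mulVec (f : Tables r c → ℝ) (X : Tables r c) :
    (rowChain r c).mulVec f X =
      (1 / ((Fintype.card R : ℝ) * ((Fintype.card R : ℝ) - 1))) *
        ∑ a, ∑ b, if a ≠ b then avg (tlab r c a b) f X else 0 := by
  simp only [Matrix.mulVec, dotProduct, rowChain, mul_assoc]
  rw [← Finset.mul_sum]
  congr 1
  have h : ∀ Y, (∑ a, ∑ b, if a ≠ b then resample a b X Y else 0) * f Y =
      ∑ a, ∑ b, if a ≠ b then resample a b X Y * f Y else 0 := by
    intro Y
    rw [Finset.sum_mul]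
    refine Finset.sum_congr rfl (fun a _ => ?_)
    rw [Finset.sum_mul]
    refine Finset.sum_congr rfl (fun b _ => ?_)
    split_ifs <;> simp
  simp only [h]
  rw [Finset.sum_comm]
  refine Finset.sum_congr rfl (fun a _ => ?_)
  rw [Finset.sum_comm]
  refine Finset.sum_congr rfl (fun b _ => ?_)
  split_ifs
  · exact resample_sum a b X f
  · simp

/-- Contraction on mean-zero functions. -/
theorem rowChain_contr [DecidableEq C] (hR : 2 ≤ Fintype.card R) (hgood : AllThreeRow r C)
    (f : Tables r c → ℝ) (hf : ∑ X, f X = 0) :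
    dot ((rowChain r c).mulVec f) ((rowChain r c).mulVec f) ≤
      (1 - 2 / ((Fintype.card R : ℝ) * ((Fintype.card R : ℝ) - 1))) * dot f f := by
  classical
  have hM := pairs_pos hR
  set M : ℝ := (Fintype.card R : ℝ) * ((Fintype.card R : ℝ) - 1) with hMdef
  have hgap := main_gap hgood f hf
  -- pointwise Cauchy-Schwarz over the ordered pairs
  let E : Finset (R × R) := univ.filter (fun p => p.1 ≠ p.2)
  have hsumE : ∀ φ : R → R → ℝ, (∑ a, ∑ b, if a ≠ b then φ a b else 0) = ∑ p ∈ E, φ p.1 p.2 := by
    intro φ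
    rw [Finset.sum_filter, ← Finset.univ_product_univ, Finset.sum_product]
  have hcard : (E.card : ℝ) = M := by
    have := hsumE (fun _ _ => 1)
    rw [sum_ne_one hR] at this
    rw [hMdef, this]
    simp
  have hpt : ∀ X, ((rowChain r c).mulVec f X) * ((rowChain r c).mulVec f X) ≤
      (1 / M) * ∑ p ∈ E, avg (tlab r c p.1 p.2) f X * avg (tlab r c p.1 p.2) f X := by
    intro X
    rw [rowChain_mulVec, hsumE (fun a b => avg (tlab r c a b) f X)]
    have h1 := sq_sum_le_card_mul_sum_sq (s := E) (f := fun p => avg (tlab r c p.1 p.2) f X)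
    rw [hcard] at h1
    simp only [sq] at h1
    have h2 : (1 / M) * (∑ p ∈ E, avg (tlab r c p.1 p.2) f X) *
        ((1 / M) * ∑ p ∈ E, avg (tlab r c p.1 p.2) f X) =
        (1 / M) * ((1 / M) * ((∑ p ∈ E, avg (tlab r c p.1 p.2) f X) *
          ∑ p ∈ E, avg (tlab r c p.1 p.2) f X)) := by ring
    rw [← hMdef, h2]
    refine mul_le_mul_of_nonneg_left ?_ (by positivity)
    rw [div_mul_eq_mul_div, one_mul, div_le_iff₀ hM]
    linarith
  have hsum : dot ((rowChain r c).mulVec f) ((rowChain r c).mulVec f) ≤
      (1 / M) * ∑ p ∈ E, dot (avg (tlab r c p.1 p.2) f) (avg (tlab r c p.1 p.2) f) := by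
    unfold dot
    refine (Finset.sum_le_sum (fun X _ => hpt X)).trans (le_of_eq ?_)
    rw [← Finset.mul_sum, Finset.sum_comm]
  have hE : ∑ p ∈ E, dot (avg (tlab r c p.1 p.2) f) (avg (tlab r c p.1 p.2) f) =
      M * dot f f - dot f (Wop r c f) := by
    have h1 : ∀ p : R × R, dot (avg (tlab r c p.1 p.2) f) (avg (tlab r c p.1 p.2) f) =
        dot f f - dot (prj (tlab r c p.1 p.2) f) (prj (tlab r c p.1 p.2) f) := by
      intro p
      rw [dot_prj_prj, dot_avg_left, avg_avg, prj_eq, dot_sub_right]
      ring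
    simp only [h1]
    rw [Finset.sum_sub_distrib, Finset.sum_const, nsmul_eq_mul, hcard, dot_f_Wop,
      hsumE (fun a b => dot (prj (tlab r c a b) f) (prj (tlab r c a b) f))]
  rw [hE] at hsum
  refine hsum.trans ?_
  rw [show (1 - 2 / M) * dot f f = (1 / M) * (M * dot f f - 2 * dot f f) by field_simp]
  refine mul_le_mul_of_nonneg_left ?_ (by positivity)
  linarith

/-- Total variation bound for the row-pair chain, given the `3`-row statement for all triples. -/
theorem rowChain_tv [DecidableEq C] (hR : 2 ≤ Fintype.card R) (hgood : AllThreeRow r C)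
    (t : ℕ) (X : Tables r c) :
    ((1 / 2) * ∑ Y, |(rowChain r c ^ t) X Y - 1 / (Fintype.card (Tables r c) : ℝ)|) ^ 2 ≤
      (1 / 4) * (Fintype.card (Tables r c) : ℝ) *
        (1 - 2 / ((Fintype.card R : ℝ) * ((Fintype.card R : ℝ) - 1))) ^ t := by
  have hM := pairs_pos hR
  have hm2 : (2 : ℝ) ≤ (Fintype.card R : ℝ) := by exact_mod_cast hR
  refine tv_bound (rowChain r c) _ ?_ rowChain_symm (rowChain_row hR)
    (rowChain_contr hR hgood) t X
  rw [div_le_one hM]
  nlinarith

end Vale.Agent.P328
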