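import Mathlib

/-!
# P328: a certified positive-semidefiniteness check on integer matrices (lists of lists)

`psdCheck` performs symmetric Gaussian elimination with integer Schur complements (with common
factors removed).  `psdCheck_sound`: if it answers `true` then the quadratic form of the matrix is
nonnegative on all real vectors.
-/

namespace Vale.Agent.P328

/-- The pairing of an integer list with a real list. -/
noncomputable def dotL : List ℤ → List ℝ → ℝ
  | a :: as, x :: xs => (a : ℝ) * x + dotL as xs
  | _, _ => 0

/-- The bilinear form of a matrix. -/
noncomputable def bilL : List (List ℤ) → List ℝ → List ℝ → ℝ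
  | row :: A, y :: ys, x => y * dotL row x + bilL A ys x
  | _, _, _ => 0

/-- The quadratic form of a matrix. -/
noncomputable def qf (A : List (List ℤ)) (x : List ℝ) : ℝ := bilL A x x

@[simp] lemma dotL_nil_left (x : List ℝ) : dotL [] x = 0 := by cases x <;> rfl
@[simp] lemma dotL_nil_right (a : List ℤ) : dotL a [] = 0 := by cases a <;> rfl
@[simp] lemma dotL_cons (a : ℤ) (as : List ℤ) (x : ℝ) (xs : List ℝ) :
    dotL (a :: as) (x :: xs) = (a : ℝ) * x + dotL as xs := rfl

@[simp] lemma bilL_nil_left (y x : List ℝ) : bilL [] y x = 0 := by cases y <;> rfl
@[simp] lemma bilL_nil_mid (A : List (List ℤ)) (x : List ℝ) : bilL A [] x = 0 := by cases A <;> rfl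
@[simp] lemma bilL_cons (row : List ℤ) (A : List (List ℤ)) (y : ℝ) (ys x : List ℝ) :
    bilL (row :: A) (y :: ys) x = y * dotL row x + bilL A ys x := rfl

/-- Peeling the first coordinate off a row. -/
lemma dotL_head_tail (row : List ℤ) (x : ℝ) (xs : List ℝ) :
    dotL row (x :: xs) = ((row.headD 0 : ℤ) : ℝ) * x + dotL row.tail xs := by
  cases row <;> simp

lemma bilL_head_tail (R : List (List ℤ)) (ys : List ℝ) (x : ℝ) (xs : List ℝ) :
    bilL R ys (x :: xs) = x * dotL (R.map (fun row => row.headD 0)) ys +
      bilL (R.map List.tail) ys xs := by
  induction R generalizing ys with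
  | nil => simp
  | cons row R ih =>
    cases ys with
    | nil => simp
    | cons y ys =>
      simp only [List.map_cons, bilL_cons, dotL_cons]
      rw [ih, dotL_head_tail]
      ring

/-- Main expansion of the quadratic form along the first coordinate. -/
lemma qf_cons (row0 : List ℤ) (rows : List (List ℤ)) (x : ℝ) (xs : List ℝ) :
    qf (row0 :: rows) (x :: xs) =
      ((row0.headD 0 : ℤ) : ℝ) * x * x + x * dotL row0.tail xs +
        x * dotL (rows.map (fun row => row.headD 0)) xs + qf (rows.map List.tail) xs := by
  unfold qf
  simp only [bilL_cons]
  rw [dotL_head_tail, bilL_head_tail]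
  ring

/-- `a * row - ti * t`. -/
def schurRow (a ti : ℤ) (row t : List ℤ) : List ℤ :=
  List.zipWith (fun r tj => a * r - ti * tj) row t

lemma dotL_schurRow (a ti : ℤ) (row t : List ℤ) (h : row.length = t.length) (x : List ℝ) :
    dotL (schurRow a ti row t) x = (a : ℝ) * dotL row x - (ti : ℝ) * dotL t x := by
  induction row generalizing t x with
  | nil =>
    have : t = [] := List.length_eq_zero_iff.mp (by simpa using h.symm)
    subst this
    simp [schurRow]
  | cons r row ih =>
    cases t with
    | nil => simp at h
    | cons tj t =>
      cases x with
      | nil => simp [schurRow]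
      | cons y ys =>
        have h' : row.length = t.length := by simpa using h
        have := ih t h' ys
        simp only [schurRow, List.zipWith_cons_cons, dotL_cons] at this ⊢
        rw [this]
        push_cast
        ring

/-- The matrix of integer Schur complements. -/
def schurMat (a : ℤ) (R : List (List ℤ)) (t : List ℤ) : List (List ℤ) :=
  List.zipWith (fun row ti => schurRow a ti row t) R t

lemma bilL_schurMat (a : ℤ) (R : List (List ℤ)) (t t0 : List ℤ) (hlen : R.length = t0.length)
    (hrow : ∀ row ∈ R, row.length = t.length) (y x : List ℝ) :
    bilL (List.zipWith (fun row ti => schurRow a ti row t) R t0) y x =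
      (a : ℝ) * bilL R y x - dotL t0 y * dotL t x := by
  induction R generalizing t0 y with
  | nil =>
    have : t0 = [] := List.length_eq_zero_iff.mp (by simpa using hlen.symm)
    subst this
    simp
  | cons row R ih =>
    cases t0 with
    | nil => simp at hlen
    | cons ti t0 =>
      cases y with
      | nil => simp
      | cons y ys =>
        have h' : R.length = t0.length := by simpa using hlen
        have := ih t0 h' (fun r hr => hrow r (List.mem_cons_of_mem _ hr)) ys
        simp only [List.zipWith_cons_cons, bilL_cons, dotL_cons]
        rw [this, dotL_schurRow a ti row t (hrow row List.mem_cons_self)]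
        ring

lemma qf_schurMat (a : ℤ) (R : List (List ℤ)) (t : List ℤ) (hlen : R.length = t.length)
    (hrow : ∀ row ∈ R, row.length = t.length) (x : List ℝ) :
    qf (schurMat a R t) x = (a : ℝ) * qf R x - dotL t x * dotL t x :=
  bilL_schurMat a R t t hlen hrow x x

/-- The gcd of all entries of a matrix (at least `1`). -/
def gcdAll (S : List (List ℤ)) : ℕ :=
  let g := S.foldr (fun row acc => row.foldr (fun e acc' => Nat.gcd e.natAbs acc') acc) 0
  if g = 0 then 1 else g

lemma gcdAll_pos (S : List (List ℤ)) : 0 < gcdAll S := by
  unfold gcdAll
  dsimp only
  split_ifs with h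
  · exact Nat.one_pos
  · exact Nat.pos_of_ne_zero h

/-- Multiply all entries by `g`. -/
def scaleMat (g : ℤ) (S : List (List ℤ)) : List (List ℤ) := S.map (List.map (fun e => e * g))

/-- Divide all entries by `g`. -/
def divMat (g : ℤ) (S : List (List ℤ)) : List (List ℤ) := S.map (List.map (fun e => e / g))

lemma dotL_scale (g : ℤ) (row : List ℤ) (x : List ℝ) :
    dotL (row.map (fun e => e * g)) x = (g : ℝ) * dotL row x := by
  induction row generalizing x with
  | nil => simp
  | cons a row ih =>
    cases x with
    | nil => simp
    | cons y ys =>
      simp only [List.map_cons, dotL_cons, ih]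
      push_cast
      ring

lemma bilL_scale (g : ℤ) (S : List (List ℤ)) (y x : List ℝ) :
    bilL (scaleMat g S) y x = (g : ℝ) * bilL S y x := by
  induction S generalizing y with
  | nil => simp [scaleMat]
  | cons row S ih =>
    cases y with
    | nil => simp [scaleMat]
    | cons a ys =>
      have := ih ys
      simp only [scaleMat, List.map_cons, bilL_cons] at this ⊢
      rw [this, dotL_scale]
      ring

/-- The elimination check, with a fuel bound on the dimension. -/
def psdCheck : ℕ → List (List ℤ) → Bool
  | _, [] => true
  | 0, _ :: _ => false
  | n + 1, row0 :: rows =>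
    let a := row0.headD 0
    let t := row0.tail
    let R := rows.map List.tail
    (rows.map (fun row => row.headD 0)) == t && R.length == t.length &&
      R.all (fun row => row.length == t.length) &&
      (if a < 0 then false
       else if a = 0 then t.all (fun e => e == 0) && psdCheck n R
       else
         let S := schurMat a R t
         let g : ℤ := (gcdAll S : ℤ)
         let S' := divMat g S
         scaleMat g S' == S && psdCheck n S')

lemma dotL_zero (t : List ℤ) (ht : ∀ e ∈ t, e = 0) (x : List ℝ) : dotL t x = 0 := by
  induction t generalizing x with
  | nil => simp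
  | cons a t ih =>
    cases x with
    | nil => simp
    | cons y ys =>
      simp only [dotL_cons]
      rw [ht a List.mem_cons_self, ih (fun e he => ht e (List.mem_cons_of_mem _ he))]
      simp

/-- Soundness of the check. -/
theorem psdCheck_sound (n : ℕ) (A : List (List ℤ)) (h : psdCheck n A = true) (x : List ℝ) :
    0 ≤ qf A x := by
  induction n generalizing A x with
  | zero =>
    cases A with
    | nil => simp [qf]
    | cons row0 rows => simp [psdCheck] at h
  | succ n ih =>
    cases A with
    | nil => simp [qf]
    | cons row0 rows =>
      cases x with
      | nil => simp [qf]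
      | cons x xs =>
        simp only [psdCheck, Bool.and_eq_true, beq_iff_eq, List.all_eq_true] at h
        obtain ⟨⟨⟨h1, h2⟩, h3⟩, h4⟩ := h
        have hrow : ∀ row ∈ rows.map List.tail, row.length = row0.tail.length := by
          intro row hr
          simpa using h3 row hr
        rw [qf_cons, h1]
        set a := row0.headD 0 with ha
        set t := row0.tail with ht
        set R := rows.map List.tail with hR
        set D := dotL t xs with hD
        by_cases hneg : a < 0
        · simp [hneg] at h4
        · rw [if_neg hneg] at h4
          by_cases hzero : a = 0
          · rw [if_pos hzero] at h4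
            simp only [Bool.and_eq_true, List.all_eq_true, beq_iff_eq] at h4
            have hD0 : D = 0 := dotL_zero t h4.1 xs
            have := ih R h4.2 xs
            rw [hzero, hD0]
            simpa using this
          · rw [if_neg hzero] at h4
            simp only [Bool.and_eq_true, beq_iff_eq] at h4
            obtain ⟨h5, h6⟩ := h4
            have hapos : (0 : ℝ) < (a : ℝ) := by
              have : 0 < a := by omega
              exact_mod_cast this
            set S := schurMat a R t with hS
            have hgpos : (0 : ℝ) < ((gcdAll S : ℤ) : ℝ) := by
              have := gcdAll_pos S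
              exact_mod_cast this
            have h7 := ih _ h6 xs
            have h8 : qf S xs = ((gcdAll S : ℤ) : ℝ) * qf (divMat (gcdAll S : ℤ) S) xs := by
              conv_lhs => rw [← h5]
              exact bilL_scale _ _ _ _
            have h9 : qf S xs = (a : ℝ) * qf R xs - D * D := qf_schurMat a R t h2 hrow xs
            have h10 : 0 ≤ qf S xs := by
              rw [h8]
              exact mul_nonneg hgpos.le h7
            have h11 : (a : ℝ) * ((a : ℝ) * x * x + x * D + x * D + qf R xs) =
                ((a : ℝ) * x + D) * ((a : ℝ) * x + D) + qf S xs := by
              rw [h9]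
              ring
            have h12 : 0 ≤ (a : ℝ) * ((a : ℝ) * x * x + x * D + x * D + qf R xs) := by
              rw [h11]
              exact add_nonneg (mul_self_nonneg _) h10
            exact (mul_nonneg_iff_of_pos_left hapos).mp h12

end Vale.Agent.P328
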