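import Vale.Agent.P328.Enum

/-! # P328: the kernel checks for the totals `0` to `4`. -/

namespace Vale.Agent.P328

theorem smallCheck0 : smallCheck 0 = true := by decide +kernel
theorem smallCheck1 : smallCheck 1 = true := by decide +kernel
theorem smallCheck2 : smallCheck 2 = true := by decide +kernel
theorem smallCheck3 : smallCheck 3 = true := by decide +kernel
theorem smallCheck4 : smallCheck 4 = true := by decide +kernel

end Vale.Agent.P328
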