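import Vale.Agent.P328.Enum

/-! # P328: part of the kernel check for the total `5`. -/

namespace Vale.Agent.P328

theorem smallAt5_0 : smallCheckAt 5 [2, 1, 1, 1] = true := by decide +kernel
theorem smallAt5_1 : smallCheckAt 5 [2, 2, 1] = true := by decide +kernel
theorem smallAt5_2 : smallCheckAt 5 [3, 1, 1] = true := by decide +kernel
theorem smallAt5_3 : smallCheckAt 5 [3, 2] = true := by decide +kernel
theorem smallAt5_4 : smallCheckAt 5 [4, 1] = true := by decide +kernel
theorem smallAt5_5 : smallCheckAt 5 [5] = true := by decide +kernel

end Vale.Agent.P328
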