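import Vale.Agent.P328.ChkA5T0
import Vale.Agent.P328.ChkA5T1
import Vale.Agent.P328.ChkA5T2
import Vale.Agent.P328.ChkA5R

/-! # P328: the kernel check for the total `5`, assembled from smaller modules. -/

namespace Vale.Agent.P328

theorem smallGs5 : smallGs 5 = [[1, 1, 1, 1, 1], [2, 1, 1, 1], [2, 2, 1], [3, 1, 1], [3, 2], [4, 1], [5]] := by decide +kernel

theorem smallTriples5 : smallTriples 5 = [(1, 2, 2), (2, 1, 2), (2, 2, 1)] := by decide +kernel

theorem smallAt5_first : smallCheckAt 5 [1, 1, 1, 1, 1] = true := by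
  unfold smallCheckAt
  rw [smallTriples5]
  simp only [List.all_cons, List.all_nil, Bool.and_true, Bool.and_eq_true]
  exact ⟨form5_0, form5_1, form5_2⟩

theorem smallCheck5 : smallCheck 5 = true := by
  unfold smallCheck
  rw [smallGs5]
  simp only [List.all_cons, List.all_nil, Bool.and_true, Bool.and_eq_true]
  exact ⟨smallAt5_first, smallAt5_0, smallAt5_1, smallAt5_2, smallAt5_3, smallAt5_4, smallAt5_5⟩

end Vale.Agent.P328
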