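import Vale.Agent.P328.Enum

/-! # P328: part of the kernel check for the total `5`. -/

namespace Vale.Agent.P328

theorem form5_0 : formCheck (tabsL [1, 1, 1, 1, 1] 1 2 2) = true := by decide +kernel

end Vale.Agent.P328
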