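import Vale.Agent.P328.Enum

/-! # P328: the kernel check for the total `6`, column sums [6]. -/

namespace Vale.Agent.P328

theorem smallAt6_10 : smallCheckAt 6 [6] = true := by decide +kernel

end Vale.Agent.P328
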