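import Vale.Agent.P328.ChkB0
import Vale.Agent.P328.ChkB1
import Vale.Agent.P328.ChkB2
import Vale.Agent.P328.ChkB3
import Vale.Agent.P328.ChkB4
import Vale.Agent.P328.ChkB5
import Vale.Agent.P328.ChkB6
import Vale.Agent.P328.ChkB7
import Vale.Agent.P328.ChkB8
import Vale.Agent.P328.ChkB9
import Vale.Agent.P328.ChkB10

/-! # P328: the kernel check for the total `6`, assembled from one module per column-sum list. -/

namespace Vale.Agent.P328

theorem smallGs6 : smallGs 6 = [[1, 1, 1, 1, 1, 1], [2, 1, 1, 1, 1], [2, 2, 1, 1], [2, 2, 2], [3, 1, 1, 1], [3, 2, 1], [3, 3], [4, 1, 1], [4, 2], [5, 1], [6]] := by decide +kernel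

theorem smallCheck6 : smallCheck 6 = true := by
  unfold smallCheck
  rw [smallGs6]
  simp only [List.all_cons, List.all_nil, Bool.and_true, Bool.and_eq_true]
  exact ⟨smallAt6_0, ⟨smallAt6_1, ⟨smallAt6_2, ⟨smallAt6_3, ⟨smallAt6_4, ⟨smallAt6_5, ⟨smallAt6_6, ⟨smallAt6_7, ⟨smallAt6_8, ⟨smallAt6_9, smallAt6_10⟩⟩⟩⟩⟩⟩⟩⟩⟩⟩

end Vale.Agent.P328
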