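import Vale.Agent.P335.Basic

/-!
# P328: contingency tables

`Tables r c` is the finite set of non-negative integer tables with row sums `r` and column sums `c`.
`lab a b X` forgets the rows `a` and `b` of the table `X`: two tables have the same label iff they
agree outside the rows `a`, `b`.
-/

namespace Vale.Agent.P328

open Finset
open Vale.Agent.P335

variable {R C : Type*} [Fintype R] [Fintype C]

/-- `X` is a table with row sums `r` and column sums `c`. -/
def IsTable (r : R → ℕ) (c : C → ℕ) (X : R → C → ℕ) : Prop :=
  (∀ i, ∑ j, X i j = r i) ∧ ∀ j, ∑ i, X i j = c j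

/-- The set of contingency tables with margins `r`, `c`. -/
abbrev Tables (r : R → ℕ) (c : C → ℕ) := {X : R → C → ℕ // IsTable r c X}

lemma IsTable.entry_le {r : R → ℕ} {c : C → ℕ} {X : R → C → ℕ} (h : IsTable r c X) (i : R) (j : C) :
    X i j ≤ r i := by
  rw [← h.1 i]
  exact Finset.single_le_sum (f := fun j => X i j) (fun _ _ => Nat.zero_le _) (Finset.mem_univ j)

open Classical in
/-- Finitely many tables: every entry is at most its row sum. -/
noncomputable instance tablesFintype (r : R → ℕ) (c : C → ℕ) : Fintype (Tables r c) :=
  Fintype.ofInjective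
    (fun X : Tables r c => fun (i : R) (j : C) =>
      (⟨X.1 i j, Nat.lt_succ_of_le (X.2.entry_le i j)⟩ : Fin (r i + 1)))
    (by
      intro X Y h
      apply Subtype.ext
      funext i j
      have := congrFun (congrFun h i) j
      simpa using congrArg Fin.val this)

variable [DecidableEq R]

/-- The table with the rows `a`, `b` erased. -/
def lab (a b : R) (X : R → C → ℕ) : R → C → ℕ :=
  fun i j => if i = a ∨ i = b then 0 else X i j

lemma lab_comm (a b : R) (X : R → C → ℕ) : lab a b X = lab b a X := by
  funext i j
  simp only [lab, or_comm]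

lemma lab_eq_iff {a b : R} {X Y : R → C → ℕ} :
    lab a b X = lab a b Y ↔ ∀ i, i ≠ a → i ≠ b → X i = Y i := by
  constructor
  · intro h i ha hb
    funext j
    have := congrFun (congrFun h i) j
    simpa [lab, ha, hb] using this
  · intro h
    funext i j
    by_cases hi : i = a ∨ i = b
    · simp [lab, hi]
    · push Not at hi
      simp [lab, hi, h i hi.1 hi.2]

/-- The label of a table in `Tables r c`. -/
def tlab (r : R → ℕ) (c : C → ℕ) (a b : R) (X : Tables r c) : R → C → ℕ := lab a b X.1

lemma tlab_comm (r : R → ℕ) (c : C → ℕ) (a b : R) : tlab r c a b = tlab r c b a := by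
  funext X
  exact lab_comm a b X.1

end Vale.Agent.P328
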