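import Vale.Agent.P328.Bridge

/-!
# P328: finitely many instances for row sums at most `2`

`comps fuel s`: the lists of positive integers with sum `s` and length at most `fuel`;
`smallCheck N`: the check of all sorted column-sum lists with sum `N`, and all row sums at most `2`
with total `N`.
-/

namespace Vale.Agent.P328

open Finset
open Vale.Agent.P335

set_option linter.unusedSectionVars false
set_option linter.unusedVariables false

/-- The lists of positive integers with sum `s`, of length at most `fuel`. -/
def comps : ℕ → ℕ → List (List ℕ)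
  | 0, s => if s = 0 then [[]] else []
  | f + 1, s =>
    if s = 0 then [[]] else
      (List.range s).flatMap (fun a => (comps f (s - (a + 1))).map (fun u => (a + 1) :: u))

lemma mem_comps {fuel s : ℕ} {L : List ℕ} (hpos : ∀ a ∈ L, 0 < a) (hs : L.sum = s)
    (hlen : L.length ≤ fuel) : L ∈ comps fuel s := by
  induction fuel generalizing s L with
  | zero =>
    have h0 : L = [] := List.length_eq_zero_iff.mp (by omega)
    subst h0
    simp only [List.sum_nil] at hs
    subst hs
    simp [comps]
  | succ f ih =>
    cases L with
    | nil =>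
      simp only [List.sum_nil] at hs
      subst hs
      simp [comps]
    | cons a u =>
      simp only [List.sum_cons] at hs
      have ha : 0 < a := hpos a List.mem_cons_self
      have hs0 : s ≠ 0 := by omega
      simp only [comps, hs0, if_false, List.mem_flatMap, List.mem_range, List.mem_map]
      refine ⟨a - 1, by omega, u, ?_, ?_⟩
      · apply ih (fun b hb => hpos b (List.mem_cons_of_mem _ hb)) (by omega)
        simpa using hlen
      · congr 1
        omega

/-- A list is weakly decreasing. -/
def sortedB : List ℕ → Bool
  | a :: b :: t => decide (b ≤ a) && sortedB (b :: t)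
  | _ => true

lemma sortedB_of_pairwise {L : List ℕ} (h : L.Pairwise (fun a b => b ≤ a)) : sortedB L = true := by
  induction L with
  | nil => rfl
  | cons a u ih =>
    cases u with
    | nil => rfl
    | cons b t =>
      obtain ⟨h1, h2⟩ := List.pairwise_cons.mp h
      simp only [sortedB, Bool.and_eq_true, decide_eq_true_eq]
      exact ⟨h1 b List.mem_cons_self, ih h2⟩

/-- The triples of row sums at most `2` with total `N`. -/
def smallTriples (N : ℕ) : List (ℕ × ℕ × ℕ) :=
  (List.product [0, 1, 2] (List.product [0, 1, 2] [0, 1, 2])).filter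
    (fun t => t.1 + (t.2.1 + t.2.2) == N)

/-- The sorted column-sum lists with total `N`. -/
def smallGs (N : ℕ) : List (List ℕ) := (comps N N).filter sortedB

/-- The check for the column sums `g`. -/
def smallCheckAt (N : ℕ) (g : List ℕ) : Bool :=
  (smallTriples N).all (fun t => formCheck (tabsL g t.1 t.2.1 t.2.2))

/-- The check for the total `N`. -/
def smallCheck (N : ℕ) : Bool := (smallGs N).all (smallCheckAt N)

lemma smallCheck_spec {N : ℕ} (h : smallCheck N = true) {g : List ℕ} (hpos : ∀ a ∈ g, 0 < a)
    (hs : g.sum = N) (hsort : g.Pairwise (fun a b => b ≤ a)) {ρ₀ ρ₁ ρ₂ : ℕ} (h0 : ρ₀ ≤ 2)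
    (h1 : ρ₁ ≤ 2) (h2 : ρ₂ ≤ 2) (hρ : ρ₀ + (ρ₁ + ρ₂) = N) :
    formCheck (tabsL g ρ₀ ρ₁ ρ₂) = true := by
  have hlen : g.length ≤ N := by
    rw [← hs]
    clear hs hsort
    induction g with
    | nil => simp
    | cons a u ih =>
      have := ih (fun b hb => hpos b (List.mem_cons_of_mem _ hb))
      have ha := hpos a List.mem_cons_self
      simp only [List.length_cons, List.sum_cons]
      omega
  have hg : g ∈ smallGs N := List.mem_filter.mpr ⟨mem_comps hpos hs hlen, sortedB_of_pairwise hsort⟩
  have h3 := List.all_eq_true.mp h g hg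
  have ht : (ρ₀, ρ₁, ρ₂) ∈ smallTriples N := by
    refine List.mem_filter.mpr ⟨?_, by simpa using hρ⟩
    simp only [List.pair_mem_product, List.mem_cons, List.not_mem_nil, or_false]
    omega
  exact List.all_eq_true.mp h3 _ ht

section Sorted

variable {D : Type*} [Fintype D] [DecidableEq D]

/-- A list of the columns with nonzero sum, sorted by decreasing sum. -/
theorem exists_sorted (γ : D → ℕ) :
    ∃ l : List D, l.Nodup ∧ (∀ j, j ∈ l ↔ γ j ≠ 0) ∧ (l.map γ).Pairwise (fun a b => b ≤ a) := by
  classical
  let rel : D → D → Prop := fun a b => γ b ≤ γ a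
  have : DecidableRel rel := fun a b => Nat.decLe _ _
  have : Std.Total rel := ⟨fun a b => Nat.le_total (γ b) (γ a)⟩
  have : IsTrans D rel := ⟨fun a b c h1 h2 => le_trans h2 h1⟩
  let l0 : List D := (univ.filter (fun j => γ j ≠ 0)).toList
  refine ⟨l0.insertionSort rel, ?_, ?_, ?_⟩
  · exact (List.perm_insertionSort rel l0).nodup_iff.mpr (Finset.nodup_toList _)
  · intro j
    rw [List.mem_insertionSort]
    simp [l0]
  · rw [List.pairwise_map]
    exact List.pairwise_insertionSort rel l0

end Sorted

end Vale.Agent.P328
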