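import Vale.Agent.P328.Chain
import Vale.Agent.P328.ChkA
import Vale.Agent.P328.ChkA5
import Vale.Agent.P328.ChkB

/-!
# P328: row sums at most `2`, and the explicit mixing bound
-/

namespace Vale.Agent.P328

open Finset
open Vale.Agent.P335

set_option linter.unusedSectionVars false
set_option linter.unusedVariables false

section Small

variable {D : Type*} [Fintype D]

/-- The `3`-row statement for row sums at most `2`. -/
theorem spec_small (ρ : Fin 3 → ℕ) (hρ : ∀ i, ρ i ≤ 2) (γ : D → ℕ) : ThreeRowSpec ρ γ := by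
  classical
  by_cases hne : Nonempty (Tables ρ γ)
  · obtain ⟨X⟩ := hne
    obtain ⟨l, hnd, hmem, hsort⟩ := exists_sorted γ
    have hsum : (l.map γ).sum = ρ 0 + (ρ 1 + ρ 2) := by
      rw [← sum_eq_list hnd (fun j hj => by
        by_contra h
        exact hj ((hmem j).mpr h))]
      have h1 : ∑ j, γ j = ∑ j, ∑ i, X.1 i j :=
        Finset.sum_congr rfl (fun j _ => (X.2.2 j).symm)
      rw [h1, Finset.sum_comm, Fin.sum_univ_three, X.2.1 0, X.2.1 1, X.2.1 2]
      ring
    have hpos : ∀ a ∈ l.map γ, 0 < a := by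
      intro a ha
      obtain ⟨j, hj, rfl⟩ := List.mem_map.mp ha
      exact Nat.pos_of_ne_zero ((hmem j).mp hj)
    have h0 := hρ 0
    have h1 := hρ 1
    have h2 := hρ 2
    have hc : formCheck (tabsL (l.map γ) (ρ 0) (ρ 1) (ρ 2)) = true := by
      have key : ∀ N, N ≤ 6 → smallCheck N = true := by
        intro N hN
        interval_cases N
        · exact smallCheck0
        · exact smallCheck1
        · exact smallCheck2
        · exact smallCheck3
        · exact smallCheck4
        · exact smallCheck5
        · exact smallCheck6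
      exact smallCheck_spec (key _ (by omega)) hpos hsum hsort h0 h1 h2 rfl
    exact spec_of_ineq (ineq_of_check hnd hmem hc)
  · intro F μ hF _
    exact absurd (by
      funext x
      exact absurd ⟨x⟩ hne) hF

end Small

variable {R C : Type*} [Fintype R] [Fintype C] [DecidableEq R] {r : R → ℕ} {c : C → ℕ}

/-- Row sums at most `2`: every triple of rows satisfies the `3`-row statement. -/
theorem allThreeRow_small (hr : ∀ i, r i ≤ 2) : AllThreeRow r C := by
  intro p q s _ _ _ γ
  refine spec_small _ (fun i => ?_) γ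
  fin_cases i
  · exact hr p
  · exact hr q
  · exact hr s

/-- A crude bound on the number of tables. -/
theorem card_tables_le (r : R → ℕ) (c : C → ℕ) :
    Fintype.card (Tables r c) ≤ (∑ i, r i + 1) ^ (Fintype.card R * Fintype.card C) := by
  classical
  have hle : ∀ (X : Tables r c) (i : R) (j : C), X.1 i j < ∑ i, r i + 1 := by
    intro X i j
    have h1 := X.2.entry_le i j
    have h2 : r i ≤ ∑ i, r i :=
      Finset.single_le_sum (f := r) (fun _ _ => Nat.zero_le _) (Finset.mem_univ i)
    omega
  have hinj : Function.Injective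
      (fun (X : Tables r c) (p : R × C) =>
        (⟨X.1 p.1 p.2, hle X p.1 p.2⟩ : Fin (∑ i, r i + 1))) := by
    intro X Y h
    apply Subtype.ext
    funext i j
    have := congrFun h (i, j)
    simpa using congrArg Fin.val this
  have h := Fintype.card_le_of_injective _ hinj
  simpa [Fintype.card_prod] using h

/-- The explicit mixing bound under the `3`-row statement. -/
theorem rowChain_mixing [DecidableEq C] (hR : 2 ≤ Fintype.card R) (hgood : AllThreeRow r C)
    (X : Tables r c) {ε : ℝ} (hε : 0 < ε) {t : ℕ}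
    (ht : ((Fintype.card R : ℝ) * ((Fintype.card R : ℝ) - 1) / 2) *
        (Real.log (Fintype.card (Tables r c)) + 2 * Real.log (1 / ε)) ≤ t) :
    (1 / 2) * ∑ Y, |(rowChain r c ^ t) X Y - 1 / (Fintype.card (Tables r c) : ℝ)| ≤ ε := by
  have h0 := rowChain_tv hR hgood t X
  set TV := (1 / 2) * ∑ Y, |(rowChain r c ^ t) X Y - 1 / (Fintype.card (Tables r c) : ℝ)| with hTV
  have hTV0 : 0 ≤ TV := by
    rw [hTV]
    have : 0 ≤ ∑ Y, |(rowChain r c ^ t) X Y - 1 / (Fintype.card (Tables r c) : ℝ)| :=
      Finset.sum_nonneg (fun _ _ => abs_nonneg _)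
    linarith
  have hm2 : (2 : ℝ) ≤ (Fintype.card R : ℝ) := by exact_mod_cast hR
  set M : ℝ := (Fintype.card R : ℝ) * ((Fintype.card R : ℝ) - 1) with hM
  have hMpos : 2 ≤ M := by nlinarith
  set g : ℝ := 2 / M with hg
  have hgpos : 0 < g := by positivity
  have hg1 : g ≤ 1 := by
    rw [hg, div_le_one (by linarith)]
    linarith
  have hNpos : 0 < (Fintype.card (Tables r c) : ℝ) := by
    have : Nonempty (Tables r c) := ⟨X⟩
    exact_mod_cast Fintype.card_pos
  set N : ℝ := (Fintype.card (Tables r c) : ℝ) with hN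
  -- the exponential bound
  have h1 : (1 - g) ^ t ≤ Real.exp (-(g * t)) := by
    have h2 : 1 - g ≤ Real.exp (-g) := by
      have := Real.add_one_le_exp (-g)
      linarith
    have h3 : (1 - g) ^ t ≤ (Real.exp (-g)) ^ t :=
      pow_le_pow_left₀ (by linarith) h2 t
    rw [← Real.exp_nat_mul] at h3
    have h4 : (t : ℝ) * (-g) = -(g * t) := by ring
    rwa [h4] at h3
  have h5 : Real.log N + 2 * Real.log (1 / ε) ≤ g * t := by
    have h6 : M / 2 * (Real.log N + 2 * Real.log (1 / ε)) ≤ t := ht
    have h7 : g * (M / 2) = 1 := by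
      rw [hg]
      field_simp
    calc Real.log N + 2 * Real.log (1 / ε)
        = g * (M / 2 * (Real.log N + 2 * Real.log (1 / ε))) := by
          rw [← mul_assoc, h7, one_mul]
      _ ≤ g * t := mul_le_mul_of_nonneg_left h6 hgpos.le
  have h8 : Real.exp (-(g * t)) ≤ ε ^ 2 / N := by
    have h9 : ε ^ 2 / N = Real.exp (-(Real.log N + 2 * Real.log (1 / ε))) := by
      rw [Real.exp_neg, Real.exp_add, Real.exp_log hNpos, two_mul, Real.exp_add,
        Real.exp_log (by positivity)]
      field_simp
    rw [h9]
    exact Real.exp_le_exp.mpr (by linarith)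
  have h10 : TV ^ 2 ≤ (ε / 2) ^ 2 := by
    calc TV ^ 2 ≤ (1 / 4) * N * (1 - g) ^ t := h0
      _ ≤ (1 / 4) * N * (ε ^ 2 / N) := by
        apply mul_le_mul_of_nonneg_left (h1.trans h8)
        positivity
      _ = (ε / 2) ^ 2 := by
        field_simp
        ring
  have h11 : TV ≤ ε / 2 := by
    exact (pow_le_pow_iff_left₀ hTV0 (by positivity) (by norm_num)).mp h10
  linarith

end Vale.Agent.P328
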