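import Vale.Agent.P328.Local

/-!
# P328: the spectral gap of the row-pair resampling

`W f = ∑_{a ≠ b} prj (tlab a b) f`.  `W² ≥ 2 W` by `pair_split`, `overlap_nonneg`, `disjoint_nonneg`.
The kernel of `W` is the constants: two tables are joined by `2 × 2` moves, each of which changes two
rows only.  So `2 ‖f‖² ≤ ⟪f, W f⟫` for `f` of mean zero.
-/

namespace Vale.Agent.P328

open Finset
open Vale.Agent.P335

set_option linter.unusedSectionVars false
set_option linter.unusedVariables false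

variable {R C : Type*} [Fintype R] [Fintype C] [DecidableEq R] {r : R → ℕ} {c : C → ℕ}

section Connect

variable [DecidableEq C]

/-- If `X ≠ Y` there are rows `i ≠ k` and columns `j ≠ l` with `X i j > Y i j`, `X k j < Y k j`,
`X k l > Y k l`. -/
lemma exists_move {X Y : R → C → ℕ} (hX : IsTable r c X) (hY : IsTable r c Y) (hne : X ≠ Y) :
    ∃ i k j l, i ≠ k ∧ j ≠ l ∧ Y i j < X i j ∧ X k j < Y k j ∧ Y k l < X k l := by
  -- a row with a larger entry
  have hstep : ∃ i j, Y i j < X i j := by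
    by_contra hcon
    push Not at hcon
    apply hne
    funext i j
    refine le_antisymm (hcon i j) ?_
    by_contra hlt
    push Not at hlt
    have h1 : ∑ j, X i j < ∑ j, Y i j :=
      Finset.sum_lt_sum (fun j' _ => hcon i j') ⟨j, Finset.mem_univ _, hlt⟩
    rw [hX.1 i, hY.1 i] at h1
    exact lt_irrefl _ h1
  obtain ⟨i, j, hij⟩ := hstep
  have hk : ∃ k, X k j < Y k j := by
    by_contra hcon
    push Not at hcon
    have h1 : ∑ i, Y i j < ∑ i, X i j :=
      Finset.sum_lt_sum (fun i' _ => hcon i') ⟨i, Finset.mem_univ _, hij⟩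
    rw [hX.2 j, hY.2 j] at h1
    exact lt_irrefl _ h1
  obtain ⟨k, hkj⟩ := hk
  have hl : ∃ l, Y k l < X k l := by
    by_contra hcon
    push Not at hcon
    have h1 : ∑ j, X k j < ∑ j, Y k j :=
      Finset.sum_lt_sum (fun j' _ => hcon j') ⟨j, Finset.mem_univ _, hkj⟩
    rw [hX.1 k, hY.1 k] at h1
    exact lt_irrefl _ h1
  obtain ⟨l, hkl⟩ := hl
  refine ⟨i, k, j, l, ?_, ?_, hij, hkj, hkl⟩
  · rintro rfl
    omega
  · rintro rfl
    omega

/-- The increment of a `2 × 2` move. -/
def inc (i k : R) (j l : C) (i' : R) (j' : C) : ℤ :=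
  ((if i' = k then 1 else 0) - (if i' = i then 1 else 0)) *
    ((if j' = j then 1 else 0) - (if j' = l then 1 else 0))

lemma inc_sum_row (i k : R) (j l : C) (i' : R) : ∑ j', inc i k j l i' j' = 0 := by
  simp only [inc, ← Finset.mul_sum, Finset.sum_sub_distrib, Finset.sum_ite_eq', Finset.mem_univ,
    if_true, sub_self, mul_zero]

lemma inc_sum_col (i k : R) (j l : C) (j' : C) : ∑ i', inc i k j l i' j' = 0 := by
  simp only [inc, ← Finset.sum_mul, Finset.sum_sub_distrib, Finset.sum_ite_eq', Finset.mem_univ,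
    if_true, sub_self, zero_mul]

/-- The move `X ↦ X + inc`. -/
def moved (X : R → C → ℕ) (i k : R) (j l : C) : R → C → ℕ :=
  fun i' j' => ((X i' j' : ℤ) + inc i k j l i' j').toNat

lemma moved_cast {X : R → C → ℕ} {i k : R} {j l : C} (hik : i ≠ k) (hjl : j ≠ l)
    (h1 : 1 ≤ X i j) (h2 : 1 ≤ X k l) (i' : R) (j' : C) :
    ((moved X i k j l i' j' : ℕ) : ℤ) = (X i' j' : ℤ) + inc i k j l i' j' := by
  unfold moved
  rw [Int.toNat_of_nonneg]
  by_cases a1 : i' = i
  · subst a1
    by_cases b1 : j' = j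
    · subst b1
      simp [inc, hik, hjl]
      omega
    · by_cases b2 : j' = l
      · subst b2
        simp [inc, hik, hjl.symm]
        omega
      · simp [inc, hik, b1, b2]
  · by_cases a2 : i' = k
    · subst a2
      by_cases b1 : j' = j
      · subst b1
        simp [inc, a1, hjl]
        omega
      · by_cases b2 : j' = l
        · subst b2
          simp [inc, a1, hjl.symm]
          omega
        · simp [inc, a1, b1, b2]
    · simp [inc, a1, a2]

lemma moved_table {X : R → C → ℕ} (hX : IsTable r c X) {i k : R} {j l : C} (hik : i ≠ k)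
    (hjl : j ≠ l) (h1 : 1 ≤ X i j) (h2 : 1 ≤ X k l) : IsTable r c (moved X i k j l) := by
  refine ⟨fun i' => ?_, fun j' => ?_⟩
  · have h0 : ((∑ j', moved X i k j l i' j' : ℕ) : ℤ) = (r i' : ℤ) := by
      push_cast
      simp only [moved_cast hik hjl h1 h2]
      rw [Finset.sum_add_distrib, inc_sum_row, add_zero]
      exact_mod_cast hX.1 i'
    exact_mod_cast h0
  · have h0 : ((∑ i', moved X i k j l i' j' : ℕ) : ℤ) = (c j' : ℤ) := by
      push_cast
      simp only [moved_cast hik hjl h1 h2]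
      rw [Finset.sum_add_distrib, inc_sum_col, add_zero]
      exact_mod_cast hX.2 j'
    exact_mod_cast h0

lemma moved_off {X : R → C → ℕ} {i k : R} {j l : C} {i' : R} (a1 : i' ≠ i) (a2 : i' ≠ k) :
    moved X i k j l i' = X i' := by
  funext j'
  simp [moved, inc, a1, a2]

/-- The overlap of two tables. -/
def overlap (X Y : R → C → ℕ) : ℕ := ∑ i, ∑ j, min (X i j) (Y i j)

lemma overlap_le {X Y : R → C → ℕ} (hX : IsTable r c X) : overlap X Y ≤ ∑ i, r i := by
  refine Finset.sum_le_sum (fun i _ => ?_)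
  rw [← hX.1 i]
  exact Finset.sum_le_sum (fun j _ => min_le_left _ _)

lemma overlap_moved {X Y : R → C → ℕ} {i k : R} {j l : C} (hik : i ≠ k) (hjl : j ≠ l)
    (hij : Y i j < X i j) (hkj : X k j < Y k j) (hkl : Y k l < X k l) :
    overlap X Y + 1 ≤ overlap (moved X i k j l) Y := by
  have hpt : ∀ i' j', min (X i' j') (Y i' j') + (if i' = k then (if j' = j then 1 else 0) else 0) ≤
      min (moved X i k j l i' j') (Y i' j') := by
    intro i' j'
    have hc := moved_cast (X := X) hik hjl (by omega) (by omega) i' j'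
    by_cases a1 : i' = i
    · subst a1
      by_cases b1 : j' = j
      · subst b1
        simp [inc, hik, hjl] at hc ⊢
        omega
      · by_cases b2 : j' = l
        · subst b2
          simp [inc, hik, hjl.symm] at hc ⊢
          omega
        · simp [inc, hik, b1, b2] at hc ⊢
          omega
    · by_cases a2 : i' = k
      · subst a2
        by_cases b1 : j' = j
        · subst b1
          simp [inc, a1, hjl] at hc ⊢
          omega
        · by_cases b2 : j' = l
          · subst b2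
            simp [inc, a1, hjl.symm] at hc ⊢
            omega
          · simp [inc, a1, b1, b2] at hc ⊢
            omega
      · simp [inc, a1, a2] at hc ⊢
        omega
  have hs : overlap X Y + ∑ i', ∑ j', (if i' = k then (if j' = j then 1 else 0) else 0) ≤
      overlap (moved X i k j l) Y := by
    unfold overlap
    rw [← Finset.sum_add_distrib]
    refine Finset.sum_le_sum (fun i' _ => ?_)
    rw [← Finset.sum_add_distrib]
    exact Finset.sum_le_sum (fun j' _ => hpt i' j')
  have h1 : ∑ i', ∑ j', (if i' = k then (if j' = j then 1 else 0) else 0) = 1 := by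
    rw [Finset.sum_eq_single k]
    · simp
    · intro b _ hb
      simp [hb]
    · simp
  omega

/-- A function invariant under resampling pairs of rows is constant. -/
theorem const_of_invariant (f : Tables r c → ℝ)
    (h : ∀ (a b : R) (X Y : Tables r c), a ≠ b → tlab r c a b X = tlab r c a b Y → f X = f Y)
    (X Y : Tables r c) : f X = f Y := by
  have key : ∀ (n : ℕ) (X : Tables r c), ∑ i, r i - overlap X.1 Y.1 = n → f X = f Y := by
    intro n
    induction n using Nat.strong_induction_on with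
    | _ n ih =>
      intro X hn
      by_cases hXY : X.1 = Y.1
      · rw [Subtype.ext hXY]
      obtain ⟨i, k, j, l, hik, hjl, hij, hkj, hkl⟩ := exists_move X.2 Y.2 hXY
      have h1 : 1 ≤ X.1 i j := by omega
      have h2 : 1 ≤ X.1 k l := by omega
      let X' : Tables r c := ⟨moved X.1 i k j l, moved_table X.2 hik hjl h1 h2⟩
      have hlab : tlab r c i k X' = tlab r c i k X :=
        lab_eq_iff.mpr (fun i' a1 a2 => moved_off a1 a2)
      have hov := overlap_moved hik hjl hij hkj hkl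
      have hle := overlap_le (Y := Y.1) X'.2
      have hlt : ∑ i, r i - overlap X'.1 Y.1 < n := by
        have : overlap X'.1 Y.1 = overlap (moved X.1 i k j l) Y.1 := rfl
        omega
      rw [← ih _ hlt X' rfl]
      exact (h i k X' X hik hlab).symm
  exact key _ X rfl

end Connect

section W

/-- The operator `W`. -/
noncomputable def Wop (r : R → ℕ) (c : C → ℕ) : (Tables r c → ℝ) →ₗ[ℝ] (Tables r c → ℝ) where
  toFun f := fun X => ∑ a, ∑ b, if a ≠ b then prj (tlab r c a b) f X else 0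
  map_add' f g := by
    funext X
    simp only [prj_add, Pi.add_apply]
    rw [← Finset.sum_add_distrib]
    refine Finset.sum_congr rfl (fun a _ => ?_)
    rw [← Finset.sum_add_distrib]
    refine Finset.sum_congr rfl (fun b _ => ?_)
    split_ifs <;> simp
  map_smul' t f := by
    funext X
    simp only [prj_smul, Pi.smul_apply, RingHom.id_apply, smul_eq_mul, Finset.mul_sum]
    refine Finset.sum_congr rfl (fun a _ => Finset.sum_congr rfl (fun b _ => ?_))
    split_ifs <;> simp

lemma Wop_apply (f : Tables r c → ℝ) (X : Tables r c) :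
    Wop r c f X = ∑ a, ∑ b, if a ≠ b then prj (tlab r c a b) f X else 0 := rfl

lemma dot_Wop_right (g f : Tables r c → ℝ) :
    dot g (Wop r c f) = ∑ a, ∑ b, if a ≠ b then dot g (prj (tlab r c a b) f) else 0 := by
  simp only [dot, Wop_apply, Finset.mul_sum]
  rw [Finset.sum_comm]
  refine Finset.sum_congr rfl (fun a _ => ?_)
  rw [Finset.sum_comm]
  refine Finset.sum_congr rfl (fun b _ => ?_)
  split_ifs <;> simp

lemma dot_Wop_left (g f : Tables r c → ℝ) :
    dot (Wop r c f) g = ∑ a, ∑ b, if a ≠ b then dot (prj (tlab r c a b) f) g else 0 := by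
  rw [dot_comm, dot_Wop_right]
  refine Finset.sum_congr rfl (fun a _ => Finset.sum_congr rfl (fun b _ => ?_))
  rw [dot_comm]

lemma dot_Wop_Wop (f : Tables r c → ℝ) :
    dot (Wop r c f) (Wop r c f) = ∑ a, ∑ b, ∑ u, ∑ w, if a ≠ b ∧ u ≠ w then
      dot (prj (tlab r c a b) f) (prj (tlab r c u w) f) else 0 := by
  rw [dot_Wop_left]
  refine Finset.sum_congr rfl (fun a _ => Finset.sum_congr rfl (fun b _ => ?_))
  by_cases hab : a = b
  · simp [hab]
  · simp only [ne_eq, hab, not_false_eq_true, if_true, true_and]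
    rw [dot_Wop_right]

/-- Permuting the indices of a sum over distinct triples. -/
lemma triple_sum_perm1 {I : Type*} [Fintype I] [DecidableEq I] (F : I → I → I → ℝ) :
    (∑ p, ∑ q, ∑ s, if p ≠ q ∧ p ≠ s ∧ q ≠ s then F q p s else 0) =
      ∑ p, ∑ q, ∑ s, if p ≠ q ∧ p ≠ s ∧ q ≠ s then F p q s else 0 := by
  rw [Finset.sum_comm]
  refine Finset.sum_congr rfl (fun p _ => Finset.sum_congr rfl (fun q _ =>
    Finset.sum_congr rfl (fun s _ => ?_)))
  by_cases h : p ≠ q ∧ p ≠ s ∧ q ≠ s
  · rw [if_pos ⟨h.1.symm, h.2.2, h.2.1⟩, if_pos h]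
  · rw [if_neg (fun h' => h ⟨h'.1.symm, h'.2.2, h'.2.1⟩), if_neg h]

lemma triple_sum_perm2 {I : Type*} [Fintype I] [DecidableEq I] (F : I → I → I → ℝ) :
    (∑ p, ∑ q, ∑ s, if p ≠ q ∧ p ≠ s ∧ q ≠ s then F s p q else 0) =
      ∑ p, ∑ q, ∑ s, if p ≠ q ∧ p ≠ s ∧ q ≠ s then F p q s else 0 := by
  calc (∑ p, ∑ q, ∑ s, if p ≠ q ∧ p ≠ s ∧ q ≠ s then F s p q else 0)
      = ∑ p, ∑ s, ∑ q, if p ≠ q ∧ p ≠ s ∧ q ≠ s then F s p q else 0 := by
        refine Finset.sum_congr rfl (fun p _ => ?_)
        rw [Finset.sum_comm]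
    _ = ∑ s, ∑ p, ∑ q, if p ≠ q ∧ p ≠ s ∧ q ≠ s then F s p q else 0 := by
        rw [Finset.sum_comm]
    _ = ∑ p, ∑ q, ∑ s, if p ≠ q ∧ p ≠ s ∧ q ≠ s then F p q s else 0 := by
        refine Finset.sum_congr rfl (fun p _ => Finset.sum_congr rfl (fun q _ =>
          Finset.sum_congr rfl (fun s _ => ?_)))
        by_cases h : p ≠ q ∧ p ≠ s ∧ q ≠ s
        · rw [if_pos ⟨h.2.2, h.1.symm, h.2.1.symm⟩, if_pos h]
        · rw [if_neg (fun h' => h ⟨h'.2.1.symm, h'.2.2.symm, h'.1⟩), if_neg h]

variable {D : Type*} [Fintype D]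

/-- Every triple of rows satisfies the `3`-row statement, for all residual column sums. -/
def AllThreeRow (r : R → ℕ) (C : Type*) [Fintype C] : Prop :=
  ∀ (p q s : R), p ≠ q → p ≠ s → q ≠ s → ∀ γ : C → ℕ, ThreeRowSpec ![r p, r q, r s] γ

/-- `Cov ≥ 0`. -/
lemma cov_nonneg (hgood : AllThreeRow r C) (f : Tables r c → ℝ) :
    0 ≤ ∑ a, ∑ b, ∑ e, if a ≠ b ∧ a ≠ e ∧ b ≠ e then
      dot (prj (tlab r c a b) f) (prj (tlab r c a e) f) else 0 := by
  set F : R → R → R → ℝ := fun a b e => dot (prj (tlab r c a b) f) (prj (tlab r c a e) f) with hF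
  have h0 : 0 ≤ ∑ p, ∑ q, ∑ s, if p ≠ q ∧ p ≠ s ∧ q ≠ s then
      (F p q s + F q p s + F s p q) else 0 := by
    refine Finset.sum_nonneg (fun p _ => Finset.sum_nonneg (fun q _ =>
      Finset.sum_nonneg (fun s _ => ?_)))
    split_ifs with h
    · have := overlap_nonneg h.1 h.2.1 h.2.2 (hgood p q s h.1 h.2.1 h.2.2) f
      simp only [hF]
      rw [tlab_comm r c q p, tlab_comm r c s p, tlab_comm r c s q]
      linarith
    · exact le_rfl
  have h1 : (∑ p, ∑ q, ∑ s, if p ≠ q ∧ p ≠ s ∧ q ≠ s then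
      (F p q s + F q p s + F s p q) else 0) =
      (∑ p, ∑ q, ∑ s, if p ≠ q ∧ p ≠ s ∧ q ≠ s then F p q s else 0) +
      (∑ p, ∑ q, ∑ s, if p ≠ q ∧ p ≠ s ∧ q ≠ s then F q p s else 0) +
      (∑ p, ∑ q, ∑ s, if p ≠ q ∧ p ≠ s ∧ q ≠ s then F s p q else 0) := by
    simp only [← Finset.sum_add_distrib]
    refine Finset.sum_congr rfl (fun p _ => Finset.sum_congr rfl (fun q _ =>
      Finset.sum_congr rfl (fun s _ => ?_)))
    split_ifs <;> simp
  rw [h1, triple_sum_perm1 F, triple_sum_perm2 F] at h0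
  linarith

/-- `Dis ≥ 0`. -/
lemma dis_nonneg (f : Tables r c → ℝ) :
    0 ≤ ∑ a, ∑ b, ∑ u, ∑ w, if a ≠ b ∧ u ≠ w ∧ a ≠ u ∧ a ≠ w ∧ b ≠ u ∧ b ≠ w then
      dot (prj (tlab r c a b) f) (prj (tlab r c u w) f) else 0 := by
  refine Finset.sum_nonneg (fun a _ => Finset.sum_nonneg (fun b _ =>
    Finset.sum_nonneg (fun u _ => Finset.sum_nonneg (fun w _ => ?_))))
  split_ifs with h
  · exact disjoint_nonneg h.2.2.1 h.2.2.2.1 h.2.2.2.2.1 h.2.2.2.2.2 f
  · exact le_rfl

lemma dot_f_Wop (f : Tables r c → ℝ) :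
    dot f (Wop r c f) = ∑ a, ∑ b, if a ≠ b then
      dot (prj (tlab r c a b) f) (prj (tlab r c a b) f) else 0 := by
  rw [dot_Wop_right]
  refine Finset.sum_congr rfl (fun a _ => Finset.sum_congr rfl (fun b _ => ?_))
  rw [dot_prj_prj]

/-- `W² ≥ 2 W`. -/
theorem Wop_square (hgood : AllThreeRow r C) (f : Tables r c → ℝ) :
    2 * dot f (Wop r c f) ≤ dot (Wop r c f) (Wop r c f) := by
  rw [dot_Wop_Wop, pair_split (fun a b u w => dot (prj (tlab r c a b) f) (prj (tlab r c u w) f))
    (fun a b u w => by simp only [tlab_comm r c a b])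
    (fun a b u w => by simp only [tlab_comm r c u w])]
  have h1 := cov_nonneg hgood f
  have h2 := dis_nonneg f
  rw [dot_f_Wop]
  linarith

lemma Wop_sym (f g : Tables r c → ℝ) : dot (Wop r c f) g = dot f (Wop r c g) := by
  rw [dot_Wop_left, dot_Wop_right]
  refine Finset.sum_congr rfl (fun a _ => Finset.sum_congr rfl (fun b _ => ?_))
  rw [dot_prj_comm]

lemma Wop_psd (f : Tables r c → ℝ) : 0 ≤ dot f (Wop r c f) := by
  rw [dot_f_Wop]
  refine Finset.sum_nonneg (fun a _ => Finset.sum_nonneg (fun b _ => ?_))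
  split_ifs
  · exact dot_self_nonneg _
  · exact le_rfl

lemma Wop_ker [DecidableEq C] (f : Tables r c → ℝ) (h : Wop r c f = 0) (X Y : Tables r c) :
    f X = f Y := by
  refine const_of_invariant f (fun a b X Y hab hl => ?_) X Y
  have h0 : dot f (Wop r c f) = 0 := by
    rw [h]
    simp [dot]
  rw [dot_f_Wop] at h0
  have hnn : ∀ a b : R, 0 ≤ (if a ≠ b then dot (prj (tlab r c a b) f) (prj (tlab r c a b) f) else 0) := by
    intro a b
    split_ifs
    · exact dot_self_nonneg _
    · exact le_rfl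
  have h1 := (Finset.sum_eq_zero_iff_of_nonneg
    (fun a _ => Finset.sum_nonneg (fun b _ => hnn a b))).mp h0 a (Finset.mem_univ a)
  have h2 := (Finset.sum_eq_zero_iff_of_nonneg (fun b _ => hnn a b)).mp h1 b (Finset.mem_univ b)
  rw [if_pos hab] at h2
  exact const_on_fibres_of_prj _ f h2 _ _ hl

/-- The spectral gap: `2 ‖f‖² ≤ ∑_{a ≠ b} ‖prj (tlab a b) f‖²` for `f` of mean zero. -/
theorem main_gap [DecidableEq C] (hgood : AllThreeRow r C) (f : Tables r c → ℝ) (hf : ∑ X, f X = 0) :
    2 * dot f f ≤ dot f (Wop r c f) :=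
  gap_of_square (Wop r c) Wop_sym Wop_psd (θ := 2) (by norm_num) (Wop_square hgood)
    (fun f hf => Wop_ker f hf) f hf

end W

end Vale.Agent.P328
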