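import Vale.Agent.P328.Check

/-!
# P328: the quadratic form of a finite `3`-row instance

`tabsL g ρ₀ ρ₁ ρ₂` lists the tables with column sums `g` and row sums `ρ₀, ρ₁, ρ₂` as triples of lists.
`formMat` is the integer matrix of
`2 ∑_i (N ∑_T s_i² - (∑_T s_i)²) - (N ∑_T (∑_i s_i)² - (∑_T ∑_i s_i)²)`
in the variables `s_i(u)`, `u` a row state.  `instCheck` runs `psdCheck` on it.
-/

namespace Vale.Agent.P328

set_option linter.unusedSectionVars false
set_option linter.unusedVariables false

/-- A table as a triple of rows. -/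
abbrev Trip := List ℕ × List ℕ × List ℕ

/-- All lists of length `k` and sum `ρ`. -/
def statesK : ℕ → ℕ → List (List ℕ)
  | 0, ρ => if ρ = 0 then [[]] else []
  | k + 1, ρ => (List.range (ρ + 1)).flatMap (fun a => (statesK k (ρ - a)).map (fun u => a :: u))

/-- The entrywise sum of three lists. -/
def add3 (u v w : List ℕ) : List ℕ := List.zipWith (· + ·) u (List.zipWith (· + ·) v w)

/-- The tables with column sums `g` and the given row sums. -/
def tabsL (g : List ℕ) (ρ₀ ρ₁ ρ₂ : ℕ) : List Trip :=
  (List.product (statesK g.length ρ₀) (List.product (statesK g.length ρ₁) (statesK g.length ρ₂))).filter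
    (fun t => add3 t.1 t.2.1 t.2.2 == g)

/-- Adds `c • u uᵀ` to a matrix; rows with `u i = 0` are skipped. -/
def addRk (c : ℤ) (u : List ℤ) (A : List (List ℤ)) : List (List ℤ) :=
  List.zipWith (fun row ui => if ui = 0 then row else List.zipWith (fun e uj => e + c * ui * uj) row u) A u

lemma dotL_addRow (c ui : ℤ) (row u : List ℤ) (h : row.length = u.length) (x : List ℝ) :
    dotL (List.zipWith (fun e uj => e + c * ui * uj) row u) x =
      dotL row x + (c : ℝ) * (ui : ℝ) * dotL u x := by
  induction row generalizing u x with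
  | nil =>
    have : u = [] := List.length_eq_zero_iff.mp (by simpa using h.symm)
    subst this
    simp
  | cons r row ih =>
    cases u with
    | nil => simp at h
    | cons uj u =>
      cases x with
      | nil => simp
      | cons y ys =>
        have h' : row.length = u.length := by simpa using h
        simp only [List.zipWith_cons_cons, dotL_cons]
        rw [ih u h' ys]
        push_cast
        ring

lemma bilL_addRk (c : ℤ) (u u0 : List ℤ) (A : List (List ℤ)) (hlen : A.length = u0.length)
    (hrow : ∀ row ∈ A, row.length = u.length) (y x : List ℝ) :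
    bilL (List.zipWith (fun row ui => if ui = 0 then row else
        List.zipWith (fun e uj => e + c * ui * uj) row u) A u0) y x =
      bilL A y x + (c : ℝ) * dotL u0 y * dotL u x := by
  induction A generalizing u0 y with
  | nil =>
    have : u0 = [] := List.length_eq_zero_iff.mp (by simpa using hlen.symm)
    subst this
    simp
  | cons row A ih =>
    cases u0 with
    | nil => simp at hlen
    | cons ui u0 =>
      cases y with
      | nil => simp
      | cons a ys =>
        have h' : A.length = u0.length := by simpa using hlen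
        have h1 := ih u0 h' (fun r hr => hrow r (List.mem_cons_of_mem _ hr)) ys
        simp only [List.zipWith_cons_cons, bilL_cons, dotL_cons]
        rw [h1]
        by_cases h0 : ui = 0
        · rw [if_pos h0, h0]
          push_cast
          ring
        · rw [if_neg h0, dotL_addRow c ui row u (hrow row List.mem_cons_self)]
          ring

/-- Square matrices of size `d`. -/
def IsSquare (d : ℕ) (A : List (List ℤ)) : Prop := A.length = d ∧ ∀ row ∈ A, row.length = d

lemma qf_addRk {d : ℕ} {A : List (List ℤ)} (hA : IsSquare d A) (c : ℤ) {u : List ℤ}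
    (hu : u.length = d) (x : List ℝ) :
    qf (addRk c u A) x = qf A x + (c : ℝ) * (dotL u x * dotL u x) := by
  unfold qf addRk
  rw [bilL_addRk c u u A (hA.1.trans hu.symm) (fun r hr => (hA.2 r hr).trans hu.symm)]
  ring

lemma isSquare_addRk {d : ℕ} {A : List (List ℤ)} (hA : IsSquare d A) (c : ℤ) {u : List ℤ}
    (hu : u.length = d) : IsSquare d (addRk c u A) := by
  unfold addRk
  constructor
  · rw [List.length_zipWith, hA.1, hu, min_self]
  · intro row hr
    obtain ⟨i, hi, rfl⟩ := List.getElem_of_mem hr
    simp only [List.getElem_zipWith]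
    have h1 : i < A.length := by
      rw [List.length_zipWith] at hi
      omega
    have h2 := hA.2 (A[i]) (List.getElem_mem h1)
    split_ifs
    · exact h2
    · rw [List.length_zipWith, h2, hu, min_self]

/-- The zero matrix. -/
def zeroM (d : ℕ) : List (List ℤ) := List.replicate d (List.replicate d 0)

lemma isSquare_zeroM (d : ℕ) : IsSquare d (zeroM d) := by
  constructor
  · simp [zeroM]
  · intro row hr
    simp only [zeroM, List.mem_replicate] at hr
    rw [hr.2]
    simp

lemma dotL_replicate_zero (d : ℕ) (x : List ℝ) : dotL (List.replicate d 0) x = 0 := by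
  induction d generalizing x with
  | zero => simp
  | succ d ih =>
    cases x with
    | nil => simp
    | cons y ys =>
      simp only [List.replicate_succ, dotL_cons, ih]
      simp

lemma qf_zeroM (d : ℕ) (x : List ℝ) : qf (zeroM d) x = 0 := by
  have key : ∀ (k : ℕ) (y : List ℝ), bilL (List.replicate k (List.replicate d 0)) y x = 0 := by
    intro k
    induction k with
    | zero => intro y; simp
    | succ k ih2 =>
      intro y
      cases y with
      | nil => simp
      | cons a ys =>
        simp only [List.replicate_succ (n := k), bilL_cons, dotL_replicate_zero, ih2]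
        simp
  exact key d x

/-- Sum of weighted rank-one matrices. -/
def foldRk (d : ℕ) (L : List (ℤ × List ℤ)) : List (List ℤ) :=
  L.foldr (fun p A => addRk p.1 p.2 A) (zeroM d)

lemma foldRk_spec (d : ℕ) (L : List (ℤ × List ℤ)) (hL : ∀ p ∈ L, p.2.length = d) (x : List ℝ) :
    IsSquare d (foldRk d L) ∧
      qf (foldRk d L) x = (L.map (fun p => (p.1 : ℝ) * (dotL p.2 x * dotL p.2 x))).sum := by
  induction L with
  | nil => exact ⟨isSquare_zeroM d, by simp [foldRk, qf_zeroM]⟩
  | cons p L ih =>
    obtain ⟨h1, h2⟩ := ih (fun q hq => hL q (List.mem_cons_of_mem _ hq))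
    have hp := hL p List.mem_cons_self
    refine ⟨isSquare_addRk h1 _ hp, ?_⟩
    have e : foldRk d (p :: L) = addRk p.1 p.2 (foldRk d L) := rfl
    rw [e, qf_addRk h1 _ hp, h2]
    simp only [List.map_cons, List.sum_cons]
    ring

/-- Entrywise sum of two vectors. -/
def addV (u v : List ℤ) : List ℤ := List.zipWith (· + ·) u v

lemma dotL_addV (u v : List ℤ) (h : u.length = v.length) (x : List ℝ) :
    dotL (addV u v) x = dotL u x + dotL v x := by
  induction u generalizing v x with
  | nil =>
    have : v = [] := List.length_eq_zero_iff.mp (by simpa using h.symm)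
    subst this
    simp [addV]
  | cons a u ih =>
    cases v with
    | nil => simp at h
    | cons b v =>
      cases x with
      | nil => simp [addV]
      | cons y ys =>
        have h' : u.length = v.length := by simpa using h
        have := ih v h' ys
        simp only [addV, List.zipWith_cons_cons, dotL_cons] at this ⊢
        rw [this]
        push_cast
        ring

lemma length_addV (u v : List ℤ) (h : u.length = v.length) : (addV u v).length = u.length := by
  simp [addV, h]

/-- Indicator of a state. -/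
def indS (u a : List ℕ) : ℤ := if a = u then 1 else 0

lemma dotL_map_ind (S : List (List ℕ)) (hS : S.Nodup) (u : List ℕ) (hu : u ∈ S) (s : List ℕ → ℝ) :
    dotL (S.map (indS u)) (S.map s) = s u := by
  induction S with
  | nil => simp at hu
  | cons a S ih =>
    obtain ⟨h1, h2⟩ := List.nodup_cons.mp hS
    simp only [List.map_cons, dotL_cons]
    by_cases h : a = u
    · subst h
      have h3 : ∀ S : List (List ℕ), a ∉ S → dotL (S.map (indS a)) (S.map s) = 0 := by
        intro S
        induction S with
        | nil => simp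
        | cons b S ih2 =>
          intro hb
          simp only [List.mem_cons, not_or] at hb
          simp only [List.map_cons, dotL_cons]
          rw [ih2 hb.2]
          simp [indS, Ne.symm hb.1]
      rw [h3 S h1]
      simp [indS]
    · have hu' : u ∈ S := by
        rcases List.mem_cons.mp hu with h3 | h3
        · exact absurd h3.symm h
        · exact h3
      rw [ih h2 hu']
      simp [indS, h]

lemma dotL_map_zero (S : List (List ℕ)) (s : List ℕ → ℝ) :
    dotL (S.map (fun _ => (0 : ℤ))) (S.map s) = 0 := by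
  induction S with
  | nil => simp
  | cons a S ih =>
    simp only [List.map_cons, dotL_cons, ih]
    simp

lemma dotL_append (a b : List ℤ) (x y : List ℝ) (h : a.length = x.length) :
    dotL (a ++ b) (x ++ y) = dotL a x + dotL b y := by
  induction a generalizing x with
  | nil =>
    have : x = [] := List.length_eq_zero_iff.mp (by simpa using h.symm)
    subst this
    simp
  | cons c a ih =>
    cases x with
    | nil => simp at h
    | cons z zs =>
      have h' : a.length = zs.length := by simpa using h
      simp only [List.cons_append, dotL_cons]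
      rw [ih zs h']
      ring

section Form

variable (Ts : List Trip)

/-- The row states that occur. -/
def sts0 : List (List ℕ) := (Ts.map (fun t => t.1)).dedup
/-- The row states that occur. -/
def sts1 : List (List ℕ) := (Ts.map (fun t => t.2.1)).dedup
/-- The row states that occur. -/
def sts2 : List (List ℕ) := (Ts.map (fun t => t.2.2)).dedup

/-- A coefficient vector. -/
def vecOf (p₀ p₁ p₂ : List ℕ → ℤ) : List ℤ :=
  (sts0 Ts).map p₀ ++ ((sts1 Ts).map p₁ ++ (sts2 Ts).map p₂)

/-- The total number of variables. -/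
def dimOf : ℕ := (sts0 Ts).length + ((sts1 Ts).length + (sts2 Ts).length)

lemma length_vecOf (p₀ p₁ p₂ : List ℕ → ℤ) : (vecOf Ts p₀ p₁ p₂).length = dimOf Ts := by
  simp [vecOf, dimOf]

/-- The vector of values of three row functions. -/
noncomputable def valOf (s₀ s₁ s₂ : List ℕ → ℝ) : List ℝ :=
  (sts0 Ts).map s₀ ++ ((sts1 Ts).map s₁ ++ (sts2 Ts).map s₂)

lemma dotL_vecOf (p₀ p₁ p₂ : List ℕ → ℤ) (s₀ s₁ s₂ : List ℕ → ℝ) :
    dotL (vecOf Ts p₀ p₁ p₂) (valOf Ts s₀ s₁ s₂) =
      dotL ((sts0 Ts).map p₀) ((sts0 Ts).map s₀) +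
      (dotL ((sts1 Ts).map p₁) ((sts1 Ts).map s₁) +
        dotL ((sts2 Ts).map p₂) ((sts2 Ts).map s₂)) := by
  unfold vecOf valOf
  rw [dotL_append _ _ _ _ (by simp), dotL_append _ _ _ _ (by simp)]

/-- Unit vectors of the three rows of a table. -/
def e0 (t : Trip) : List ℤ := vecOf Ts (indS t.1) (fun _ => 0) (fun _ => 0)
/-- Unit vectors of the three rows of a table. -/
def e1 (t : Trip) : List ℤ := vecOf Ts (fun _ => 0) (indS t.2.1) (fun _ => 0)
/-- Unit vectors of the three rows of a table. -/
def e2 (t : Trip) : List ℤ := vecOf Ts (fun _ => 0) (fun _ => 0) (indS t.2.2)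
/-- The sum of the three unit vectors of a table. -/
def eT (t : Trip) : List ℤ := addV (e0 Ts t) (addV (e1 Ts t) (e2 Ts t))

/-- The sum over the tables of a vector-valued function. -/
def sumV (d : ℕ) (F : Trip → List ℤ) : List ℤ :=
  Ts.foldr (fun t acc => addV (F t) acc) (List.replicate d 0)

/-- The list of rank-one terms of the form. -/
def formTerms : List (ℤ × List ℤ) :=
  let N : ℤ := (Ts.length : ℤ)
  let d := dimOf Ts
  let L0 := sumV Ts d (e0 Ts)
  let L1 := sumV Ts d (e1 Ts)
  let L2 := sumV Ts d (e2 Ts)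
  Ts.flatMap (fun t => [(2 * N, e0 Ts t), (2 * N, e1 Ts t), (2 * N, e2 Ts t), (-N, eT Ts t)]) ++
    [(1, addV L0 (addV L1 L2)), (-2, L0), (-2, L1), (-2, L2)]

/-- The check for the instance. -/
def formCheck : Bool := psdCheck (dimOf Ts) (foldRk (dimOf Ts) (formTerms Ts))

variable {Ts}

lemma mem_sts0 {t : Trip} (ht : t ∈ Ts) : t.1 ∈ sts0 Ts :=
  List.mem_dedup.mpr (List.mem_map.mpr ⟨t, ht, rfl⟩)
lemma mem_sts1 {t : Trip} (ht : t ∈ Ts) : t.2.1 ∈ sts1 Ts :=
  List.mem_dedup.mpr (List.mem_map.mpr ⟨t, ht, rfl⟩)
lemma mem_sts2 {t : Trip} (ht : t ∈ Ts) : t.2.2 ∈ sts2 Ts :=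
  List.mem_dedup.mpr (List.mem_map.mpr ⟨t, ht, rfl⟩)

lemma length_e0 (t : Trip) : (e0 Ts t).length = dimOf Ts := length_vecOf _ _ _ _
lemma length_e1 (t : Trip) : (e1 Ts t).length = dimOf Ts := length_vecOf _ _ _ _
lemma length_e2 (t : Trip) : (e2 Ts t).length = dimOf Ts := length_vecOf _ _ _ _

lemma length_eT (t : Trip) : (eT Ts t).length = dimOf Ts := by
  unfold eT
  rw [length_addV _ _ (by rw [length_e0, length_addV _ _ (by rw [length_e1, length_e2]), length_e1]),
    length_e0]

lemma dot_e0 (s₀ s₁ s₂ : List ℕ → ℝ) {t : Trip} (ht : t ∈ Ts) :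
    dotL (e0 Ts t) (valOf Ts s₀ s₁ s₂) = s₀ t.1 := by
  unfold e0
  rw [dotL_vecOf, dotL_map_ind (sts0 Ts) (List.nodup_dedup _) _ (mem_sts0 ht), dotL_map_zero, dotL_map_zero]
  simp

lemma dot_e1 (s₀ s₁ s₂ : List ℕ → ℝ) {t : Trip} (ht : t ∈ Ts) :
    dotL (e1 Ts t) (valOf Ts s₀ s₁ s₂) = s₁ t.2.1 := by
  unfold e1
  rw [dotL_vecOf, dotL_map_ind (sts1 Ts) (List.nodup_dedup _) _ (mem_sts1 ht), dotL_map_zero, dotL_map_zero]
  simp

lemma dot_e2 (s₀ s₁ s₂ : List ℕ → ℝ) {t : Trip} (ht : t ∈ Ts) :
    dotL (e2 Ts t) (valOf Ts s₀ s₁ s₂) = s₂ t.2.2 := by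
  unfold e2
  rw [dotL_vecOf, dotL_map_ind (sts2 Ts) (List.nodup_dedup _) _ (mem_sts2 ht), dotL_map_zero, dotL_map_zero]
  simp

lemma dot_eT (s₀ s₁ s₂ : List ℕ → ℝ) {t : Trip} (ht : t ∈ Ts) :
    dotL (eT Ts t) (valOf Ts s₀ s₁ s₂) = s₀ t.1 + s₁ t.2.1 + s₂ t.2.2 := by
  unfold eT
  rw [dotL_addV _ _ (by rw [length_e0, length_addV _ _ (by rw [length_e1, length_e2]), length_e1]),
    dotL_addV _ _ (by rw [length_e1, length_e2]), dot_e0 _ _ _ ht, dot_e1 _ _ _ ht, dot_e2 _ _ _ ht]
  ring

/-- Sum of vectors along a sublist of the tables. -/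
lemma sumV_spec (d : ℕ) (F : Trip → List ℤ) (hF : ∀ t, (F t).length = d) (L : List Trip) (x : List ℝ) :
    (L.foldr (fun t acc => addV (F t) acc) (List.replicate d 0)).length = d ∧
    dotL (L.foldr (fun t acc => addV (F t) acc) (List.replicate d 0)) x =
      (L.map (fun t => dotL (F t) x)).sum := by
  induction L with
  | nil => simp [dotL_replicate_zero]
  | cons t L ih =>
    obtain ⟨h1, h2⟩ := ih
    simp only [List.foldr_cons, List.map_cons, List.sum_cons]
    constructor
    · rw [length_addV _ _ (by rw [hF, h1]), hF]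
    · rw [dotL_addV _ _ (by rw [hF, h1]), h2]

lemma map_sum_congr_mem {α : Type*} (L : List α) (f g : α → ℝ) (h : ∀ t ∈ L, f t = g t) :
    (L.map f).sum = (L.map g).sum := by
  rw [List.map_congr_left h]

lemma sum_flatMap_map {α β : Type*} (L : List α) (g : α → List β) (φ : β → ℝ) :
    ((L.flatMap g).map φ).sum = (L.map (fun t => ((g t).map φ).sum)).sum := by
  induction L with
  | nil => simp
  | cons t L ih =>
    simp only [List.flatMap_cons, List.map_append, List.sum_append, List.map_cons, List.sum_cons, ih]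

lemma sum_map_add' {α : Type*} (L : List α) (f g : α → ℝ) :
    (L.map (fun t => f t + g t)).sum = (L.map f).sum + (L.map g).sum := by
  induction L with
  | nil => simp
  | cons t L ih =>
    simp only [List.map_cons, List.sum_cons, ih]
    ring

lemma sum_map_smul' {α : Type*} (L : List α) (c : ℝ) (f : α → ℝ) :
    (L.map (fun t => c * f t)).sum = c * (L.map f).sum := by
  induction L with
  | nil => simp
  | cons t L ih =>
    simp only [List.map_cons, List.sum_cons, ih]
    ring

lemma sum_map_four {α : Type*} (L : List α) (p q : ℝ) (a b c g : α → ℝ) :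
    (L.map (fun t => p * a t + (p * b t + (p * c t + (q * g t + 0))))).sum =
      p * (L.map a).sum + p * (L.map b).sum + p * (L.map c).sum + q * (L.map g).sum := by
  induction L with
  | nil => simp
  | cons t L ih =>
    simp only [List.map_cons, List.sum_cons, ih]
    ring

lemma sum_map_G {α : Type*} (L : List α) (a b c : α → ℝ) :
    (L.map (fun t => a t + b t + c t)).sum = (L.map a).sum + (L.map b).sum + (L.map c).sum := by
  induction L with
  | nil => simp
  | cons t L ih =>
    simp only [List.map_cons, List.sum_cons, ih]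
    ring

/-- Soundness of the instance check: the variance inequality for the listed tables. -/
theorem form_nonneg (h : formCheck Ts = true) (s₀ s₁ s₂ : List ℕ → ℝ) :
    let N : ℝ := (Ts.length : ℝ)
    let G : Trip → ℝ := fun t => s₀ t.1 + s₁ t.2.1 + s₂ t.2.2
    N * (Ts.map (fun t => G t * G t)).sum - (Ts.map G).sum * (Ts.map G).sum ≤
      2 * ((N * (Ts.map (fun t => s₀ t.1 * s₀ t.1)).sum -
              (Ts.map (fun t => s₀ t.1)).sum * (Ts.map (fun t => s₀ t.1)).sum) +
           (N * (Ts.map (fun t => s₁ t.2.1 * s₁ t.2.1)).sum -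
              (Ts.map (fun t => s₁ t.2.1)).sum * (Ts.map (fun t => s₁ t.2.1)).sum) +
           (N * (Ts.map (fun t => s₂ t.2.2 * s₂ t.2.2)).sum -
              (Ts.map (fun t => s₂ t.2.2)).sum * (Ts.map (fun t => s₂ t.2.2)).sum)) := by
  intro N G
  set x := valOf Ts s₀ s₁ s₂ with hx
  set d := dimOf Ts with hd
  have h0 := psdCheck_sound _ _ h x
  -- lengths of the terms
  obtain ⟨l0, v0⟩ := sumV_spec d (e0 Ts) length_e0 Ts x
  obtain ⟨l1, v1⟩ := sumV_spec d (e1 Ts) length_e1 Ts x
  obtain ⟨l2, v2⟩ := sumV_spec d (e2 Ts) length_e2 Ts x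
  set L0 := Ts.foldr (fun t acc => addV (e0 Ts t) acc) (List.replicate d 0) with hL0
  set L1 := Ts.foldr (fun t acc => addV (e1 Ts t) acc) (List.replicate d 0) with hL1
  set L2 := Ts.foldr (fun t acc => addV (e2 Ts t) acc) (List.replicate d 0) with hL2
  have hterms : formTerms Ts =
      Ts.flatMap (fun t => [(2 * (Ts.length : ℤ), e0 Ts t), (2 * (Ts.length : ℤ), e1 Ts t),
        (2 * (Ts.length : ℤ), e2 Ts t), (-(Ts.length : ℤ), eT Ts t)]) ++
      [(1, addV L0 (addV L1 L2)), (-2, L0), (-2, L1), (-2, L2)] := rfl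
  have hL : ∀ p ∈ formTerms Ts, p.2.length = d := by
    intro p hp
    rw [hterms] at hp
    simp only [List.mem_append, List.mem_flatMap, List.mem_cons, List.not_mem_nil,
      or_false] at hp
    rcases hp with ⟨t, -, hp⟩ | hp
    · rcases hp with rfl | rfl | rfl | rfl
      · exact length_e0 t
      · exact length_e1 t
      · exact length_e2 t
      · exact length_eT t
    · rcases hp with rfl | rfl | rfl | rfl
      · show (addV L0 (addV L1 L2)).length = d
        rw [length_addV _ _ (by rw [l0, length_addV _ _ (by rw [l1, l2]), l1]), l0]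
      · exact l0
      · exact l1
      · exact l2
  have hq := (foldRk_spec d (formTerms Ts) hL x).2
  have h1 : 0 ≤ ((formTerms Ts).map (fun p => (p.1 : ℝ) * (dotL p.2 x * dotL p.2 x))).sum := by
    rw [← hq]
    exact h0
  rw [hterms, List.map_append, List.sum_append, sum_flatMap_map] at h1
  -- the values of the linear forms
  have vv0 : dotL L0 x = (Ts.map (fun t => s₀ t.1)).sum := by
    rw [v0]
    exact map_sum_congr_mem _ _ _ (fun t ht => dot_e0 _ _ _ ht)
  have vv1 : dotL L1 x = (Ts.map (fun t => s₁ t.2.1)).sum := by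
    rw [v1]
    exact map_sum_congr_mem _ _ _ (fun t ht => dot_e1 _ _ _ ht)
  have vv2 : dotL L2 x = (Ts.map (fun t => s₂ t.2.2)).sum := by
    rw [v2]
    exact map_sum_congr_mem _ _ _ (fun t ht => dot_e2 _ _ _ ht)
  have vvA : dotL (addV L0 (addV L1 L2)) x = dotL L0 x + dotL L1 x + dotL L2 x := by
    rw [dotL_addV _ _ (by rw [l0, length_addV _ _ (by rw [l1, l2]), l1]),
      dotL_addV _ _ (by rw [l1, l2])]
    ring
  have hfirst : (Ts.map (fun t => (([(2 * (Ts.length : ℤ), e0 Ts t), (2 * (Ts.length : ℤ), e1 Ts t),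
        (2 * (Ts.length : ℤ), e2 Ts t), (-(Ts.length : ℤ), eT Ts t)] : List (ℤ × List ℤ)).map
        (fun p => (p.1 : ℝ) * (dotL p.2 x * dotL p.2 x))).sum)).sum =
      (2 * N) * (Ts.map (fun t => s₀ t.1 * s₀ t.1)).sum +
      (2 * N) * (Ts.map (fun t => s₁ t.2.1 * s₁ t.2.1)).sum +
      (2 * N) * (Ts.map (fun t => s₂ t.2.2 * s₂ t.2.2)).sum +
      (-N) * (Ts.map (fun t => G t * G t)).sum := by
    rw [← sum_map_four]
    refine map_sum_congr_mem _ _ _ (fun t ht => ?_)
    simp only [List.map_cons, List.map_nil, List.sum_cons, List.sum_nil]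
    rw [dot_e0 _ _ _ ht, dot_e1 _ _ _ ht, dot_e2 _ _ _ ht, dot_eT _ _ _ ht]
    simp only [G, N]
    push_cast
    ring
  rw [hfirst] at h1
  simp only [List.map_cons, List.map_nil, List.sum_cons, List.sum_nil] at h1
  rw [vvA, vv0, vv1, vv2] at h1
  have hG : (Ts.map G).sum = (Ts.map (fun t => s₀ t.1)).sum + (Ts.map (fun t => s₁ t.2.1)).sum +
      (Ts.map (fun t => s₂ t.2.2)).sum := sum_map_G _ _ _ _
  rw [hG]
  push_cast at h1
  nlinarith [h1]

end Form

end Vale.Agent.P328
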