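import Vale.Agent.P328.Defs
import Vale.Agent.P335.PairSplit

/-!
# P328: the local-to-global step

`W f = ∑_{a ≠ b} prj (tlab a b) f`, where `prj (tlab a b)` removes the average over the resamplings
of the rows `a`, `b`.

* Disjoint row pairs: the averages commute (the rows `a,b` and `u,w` can be resampled independently),
  so `dot (prj ab f) (prj uw f) ≥ 0`.
* Overlapping row pairs: on a fibre of the rows outside `{p,q,s}` the table is a `3`-row table with
  the residual column sums, and `prj (tlab q s)` is `f` minus its average given row `p`.  So the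
  three cross terms of a triple sum to a nonnegative quantity as soon as the operator
  `E_0 + E_1 + E_2` on all `3`-row tables has no eigenvalue in `(2,3)`.
* `‖W f‖² ≥ 2 ⟪f, W f⟫`.  With the connectivity of the `2 × 2` moves this gives the gap:
  `2 ‖f‖² ≤ ⟪f, W f⟫` for `f` of mean zero.
-/

namespace Vale.Agent.P328

open Finset
open Vale.Agent.P335

set_option linter.unusedSectionVars false
set_option linter.unusedVariables false

variable {R C : Type*} [Fintype R] [Fintype C] [DecidableEq R] {r : R → ℕ} {c : C → ℕ}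

section Commute

/-- Rows `a`, `b` from `y`, rows `u`, `w` from `z`, the others from `x`. -/
def mixRaw (a b u w : R) (x y z : R → C → ℕ) : R → C → ℕ :=
  fun i => if i = a ∨ i = b then y i else if i = u ∨ i = w then z i else x i

lemma mixRaw_table {a b u w : R} (hau : a ≠ u) (haw : a ≠ w) (hbu : b ≠ u) (hbw : b ≠ w)
    {x y z : R → C → ℕ} (hx : IsTable r c x) (hy : IsTable r c y) (hz : IsTable r c z)
    (hxy : ∀ i, i ≠ a → i ≠ b → x i = y i) (hxz : ∀ i, i ≠ u → i ≠ w → x i = z i) :
    IsTable r c (mixRaw a b u w x y z) := by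
  refine ⟨fun i => ?_, fun j => ?_⟩
  · simp only [mixRaw]
    split_ifs
    · exact hy.1 i
    · exact hz.1 i
    · exact hx.1 i
  · have key : ∀ i, ((mixRaw a b u w x y z i j : ℕ) : ℤ) = (y i j : ℤ) + z i j - x i j := by
      intro i
      simp only [mixRaw]
      by_cases h1 : i = a ∨ i = b
      · have h3 : i ≠ u := by rcases h1 with h | h <;> rintro rfl <;> simp_all
        have h4 : i ≠ w := by rcases h1 with h | h <;> rintro rfl <;> simp_all
        rw [if_pos h1, hxz i h3 h4]
        ring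
      · rw [if_neg h1]
        push Not at h1
        rw [← hxy i h1.1 h1.2]
        by_cases h2 : i = u ∨ i = w
        · rw [if_pos h2]; ring
        · push Not at h2
          rw [if_neg (by tauto), hxz i h2.1 h2.2]; ring
    have h0 : ((∑ i, mixRaw a b u w x y z i j : ℕ) : ℤ) = (c j : ℤ) := by
      push_cast
      simp only [key]
      rw [Finset.sum_sub_distrib, Finset.sum_add_distrib]
      have e1 := hx.2 j
      have e2 := hy.2 j
      have e3 := hz.2 j
      have e1' : (∑ i, (x i j : ℤ)) = c j := by exact_mod_cast e1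
      have e2' : (∑ i, (y i j : ℤ)) = c j := by exact_mod_cast e2
      have e3' : (∑ i, (z i j : ℤ)) = c j := by exact_mod_cast e3
      rw [e1', e2', e3']
      ring
    exact_mod_cast h0

open Classical in
/-- The mixed table, as a total function. -/
noncomputable def mixT (a b u w : R) (x y z : Tables r c) : Tables r c :=
  if h : (a ≠ u ∧ a ≠ w ∧ b ≠ u ∧ b ≠ w) ∧ tlab r c a b y = tlab r c a b x ∧
      tlab r c u w z = tlab r c u w x then
    ⟨mixRaw a b u w x.1 y.1 z.1, mixRaw_table h.1.1 h.1.2.1 h.1.2.2.1 h.1.2.2.2 x.2 y.2 z.2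
      (fun i h1 h2 => (lab_eq_iff.mp h.2.1 i h1 h2).symm)
      (fun i h1 h2 => (lab_eq_iff.mp h.2.2 i h1 h2).symm)⟩
  else x

lemma mixT_val {a b u w : R} (hau : a ≠ u) (haw : a ≠ w) (hbu : b ≠ u) (hbw : b ≠ w)
    {x y z : Tables r c} (hy : tlab r c a b y = tlab r c a b x)
    (hz : tlab r c u w z = tlab r c u w x) :
    (mixT a b u w x y z).1 = mixRaw a b u w x.1 y.1 z.1 := by
  unfold mixT
  rw [dif_pos ⟨⟨hau, haw, hbu, hbw⟩, hy, hz⟩]

lemma fibre_sum_eq {a b u w : R} (hau : a ≠ u) (haw : a ≠ w) (hbu : b ≠ u) (hbw : b ≠ w)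
    (x y : Tables r c) (hy : tlab r c a b y = tlab r c a b x) (f : Tables r c → ℝ) :
    (∑ z ∈ univ.filter (fun v : Tables r c => tlab r c u w v = tlab r c u w x),
        f (mixT a b u w x y z)) =
      ∑ v ∈ univ.filter (fun v : Tables r c => tlab r c u w v = tlab r c u w y), f v := by
  classical
  have hyx : ∀ i, i ≠ a → i ≠ b → y.1 i = x.1 i := fun i h1 h2 => lab_eq_iff.mp hy i h1 h2
  have hinv : ∀ v : Tables r c, tlab r c u w v = tlab r c u w y →
      IsTable r c (mixRaw a b u w y.1 x.1 v.1) := by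
    intro v hv
    exact mixRaw_table hau haw hbu hbw y.2 x.2 v.2 hyx
      (fun i h1 h2 => (lab_eq_iff.mp hv i h1 h2).symm)
  refine Finset.sum_bij (fun z _ => mixT a b u w x y z) ?_ ?_ ?_ ?_
  · intro z hz
    have hz' := (Finset.mem_filter.mp hz).2
    refine Finset.mem_filter.mpr ⟨Finset.mem_univ _, ?_⟩
    refine lab_eq_iff.mpr (fun i h1 h2 => ?_)
    rw [mixT_val hau haw hbu hbw hy hz']
    simp only [mixRaw]
    by_cases h3 : i = a ∨ i = b
    · rw [if_pos h3]
    · rw [if_neg h3, if_neg (by tauto)]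
      push Not at h3
      exact (hyx i h3.1 h3.2).symm
  · intro z hz z' hz' h
    have hz1 := (Finset.mem_filter.mp hz).2
    have hz2 := (Finset.mem_filter.mp hz').2
    have h1 : mixRaw a b u w x.1 y.1 z.1 = mixRaw a b u w x.1 y.1 z'.1 := by
      rw [← mixT_val hau haw hbu hbw hy hz1, ← mixT_val hau haw hbu hbw hy hz2, h]
    apply Subtype.ext
    funext i
    by_cases h2 : i = u ∨ i = w
    · have h3 : ¬ (i = a ∨ i = b) := by
        rcases h2 with h | h <;> subst h <;> simp [hau.symm, haw.symm, hbu.symm, hbw.symm]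
      have := congrFun h1 i
      simp only [mixRaw, if_neg h3, if_pos h2] at this
      exact this
    · push Not at h2
      rw [lab_eq_iff.mp hz1 i h2.1 h2.2, lab_eq_iff.mp hz2 i h2.1 h2.2]
  · intro v hv
    have hv1 := (Finset.mem_filter.mp hv).2
    let z : Tables r c := ⟨mixRaw a b u w y.1 x.1 v.1, hinv v hv1⟩
    have hz : tlab r c u w z = tlab r c u w x := by
      refine lab_eq_iff.mpr (fun i h1 h2 => ?_)
      simp only [z, mixRaw]
      by_cases h3 : i = a ∨ i = b
      · rw [if_pos h3]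
      · rw [if_neg h3, if_neg (by tauto)]
        push Not at h3
        exact hyx i h3.1 h3.2
    refine ⟨z, Finset.mem_filter.mpr ⟨Finset.mem_univ _, hz⟩, ?_⟩
    apply Subtype.ext
    rw [mixT_val hau haw hbu hbw hy hz]
    funext i
    simp only [mixRaw, z]
    by_cases h3 : i = a ∨ i = b
    · rw [if_pos h3]
      have h5 : i ≠ u := by rcases h3 with h | h <;> rintro rfl <;> simp_all
      have h6 : i ≠ w := by rcases h3 with h | h <;> rintro rfl <;> simp_all
      rw [lab_eq_iff.mp hv1 i h5 h6]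
    · rw [if_neg h3]
      by_cases h4 : i = u ∨ i = w
      · rw [if_pos h4, if_neg h3, if_pos h4]
      · rw [if_neg h4]
        push Not at h3 h4
        rw [lab_eq_iff.mp hv1 i h4.1 h4.2, hyx i h3.1 h3.2]
  · intro z _
    rfl

lemma fibre_card_eq {a b u w : R} (hau : a ≠ u) (haw : a ≠ w) (hbu : b ≠ u) (hbw : b ≠ w)
    (x y : Tables r c) (hy : tlab r c a b y = tlab r c a b x) :
    (univ.filter (fun v : Tables r c => tlab r c u w v = tlab r c u w y)).card =
      (univ.filter (fun v : Tables r c => tlab r c u w v = tlab r c u w x)).card := by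
  have h := fibre_sum_eq hau haw hbu hbw x y hy (fun _ => (1 : ℝ))
  simp only [Finset.sum_const, nsmul_eq_mul, mul_one] at h
  exact_mod_cast h.symm

lemma avg_apply' {Ω K : Type*} [Fintype Ω] [DecidableEq K] (κ : Ω → K) (g : Ω → ℝ) (x : Ω) :
    avg κ g x = (∑ y ∈ univ.filter (fun y => κ y = κ x), g y) /
      ((univ.filter (fun y => κ y = κ x)).card : ℝ) := by
  unfold avg
  congr!

/-- The double average as a double sum over the two fibres of `x`. -/
lemma avg_avg_formula {a b u w : R} (hau : a ≠ u) (haw : a ≠ w) (hbu : b ≠ u) (hbw : b ≠ w)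
    (f : Tables r c → ℝ) (x : Tables r c) :
    avg (tlab r c a b) (avg (tlab r c u w) f) x =
      (∑ y ∈ univ.filter (fun v : Tables r c => tlab r c a b v = tlab r c a b x),
        ∑ z ∈ univ.filter (fun v : Tables r c => tlab r c u w v = tlab r c u w x),
          f (mixT a b u w x y z)) /
      (((univ.filter (fun v : Tables r c => tlab r c a b v = tlab r c a b x)).card : ℝ) *
        ((univ.filter (fun v : Tables r c => tlab r c u w v = tlab r c u w x)).card : ℝ)) := by
  classical
  rw [avg_apply' (tlab r c a b) (avg (tlab r c u w) f) x]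
  have h1 : ∀ y ∈ univ.filter (fun v : Tables r c => tlab r c a b v = tlab r c a b x),
      avg (tlab r c u w) f y =
        (∑ z ∈ univ.filter (fun v : Tables r c => tlab r c u w v = tlab r c u w x),
          f (mixT a b u w x y z)) /
        ((univ.filter (fun v : Tables r c => tlab r c u w v = tlab r c u w x)).card : ℝ) := by
    intro y hy
    have hy' := (Finset.mem_filter.mp hy).2
    rw [avg_apply' (tlab r c u w) f y, fibre_sum_eq hau haw hbu hbw x y hy' f,
      fibre_card_eq hau haw hbu hbw x y hy']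
  rw [Finset.sum_congr rfl h1, ← Finset.sum_div, div_div, mul_comm (_ : ℝ) (_ : ℝ)]

lemma mixT_comm {a b u w : R} (hau : a ≠ u) (haw : a ≠ w) (hbu : b ≠ u) (hbw : b ≠ w)
    {x y z : Tables r c} (hy : tlab r c a b y = tlab r c a b x)
    (hz : tlab r c u w z = tlab r c u w x) :
    mixT a b u w x y z = mixT u w a b x z y := by
  apply Subtype.ext
  rw [mixT_val hau haw hbu hbw hy hz, mixT_val hau.symm hbu.symm haw.symm hbw.symm hz hy]
  funext i
  simp only [mixRaw]
  by_cases h3 : i = a ∨ i = b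
  · have h5 : i ≠ u := by rcases h3 with h | h <;> rintro rfl <;> simp_all
    have h6 : i ≠ w := by rcases h3 with h | h <;> rintro rfl <;> simp_all
    rw [if_pos h3, if_neg (by tauto), if_pos h3]
  · rw [if_neg h3]
    by_cases h4 : i = u ∨ i = w
    · rw [if_pos h4, if_pos h4]
    · rw [if_neg h4, if_neg h4, if_neg h3]

/-- Resampling two disjoint pairs of rows commute. -/
theorem avg_comm {a b u w : R} (hau : a ≠ u) (haw : a ≠ w) (hbu : b ≠ u) (hbw : b ≠ w)
    (f : Tables r c → ℝ) :
    avg (tlab r c a b) (avg (tlab r c u w) f) = avg (tlab r c u w) (avg (tlab r c a b) f) := by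
  funext x
  rw [avg_avg_formula hau haw hbu hbw, avg_avg_formula hau.symm hbu.symm haw.symm hbw.symm,
    mul_comm ((_ : ℕ) : ℝ) _, Finset.sum_comm]
  congr 1
  refine Finset.sum_congr rfl (fun z hz => Finset.sum_congr rfl (fun y hy => ?_))
  rw [mixT_comm hau haw hbu hbw (Finset.mem_filter.mp hy).2 (Finset.mem_filter.mp hz).2]

/-- Disjoint pairs of rows contribute nonnegatively. -/
theorem disjoint_nonneg {a b u w : R} (hau : a ≠ u) (haw : a ≠ w) (hbu : b ≠ u) (hbw : b ≠ w)
    (f : Tables r c → ℝ) :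
    0 ≤ dot (prj (tlab r c a b) f) (prj (tlab r c u w) f) := by
  set κ₁ := tlab r c a b
  set κ₂ := tlab r c u w
  have hcomm : ∀ g : Tables r c → ℝ, prj κ₁ (prj κ₂ g) = prj κ₂ (prj κ₁ g) := by
    intro g
    have h := avg_comm hau haw hbu hbw g
    funext x
    have h1 : avg κ₁ (prj κ₂ g) = avg κ₁ g - avg κ₁ (avg κ₂ g) := by
      funext y
      have : prj κ₂ g = g + ((-1 : ℝ) • avg κ₂ g) := by
        funext z; simp [prj]; ring
      rw [this, avg_add, avg_smul]
      simp
      ring
    have h2 : avg κ₂ (prj κ₁ g) = avg κ₂ g - avg κ₂ (avg κ₁ g) := by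
      funext y
      have : prj κ₁ g = g + ((-1 : ℝ) • avg κ₁ g) := by
        funext z; simp [prj]; ring
      rw [this, avg_add, avg_smul]
      simp
      ring
    simp only [prj]
    rw [h1, h2]
    simp only [Pi.sub_apply]
    have := congrFun h x
    simp only [κ₁, κ₂] at *
    rw [this]
    ring
  have h1 : dot (prj κ₁ f) (prj κ₂ f) = dot f (prj κ₁ (prj κ₂ f)) := dot_prj_comm κ₁ f (prj κ₂ f)
  have h2 : dot (prj κ₁ (prj κ₂ f)) (prj κ₁ (prj κ₂ f)) = dot (prj κ₂ f) (prj κ₁ (prj κ₂ f)) :=
    dot_prj_prj κ₁ (prj κ₂ f) (prj κ₂ f)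
  have h3 : dot (prj κ₂ f) (prj κ₁ (prj κ₂ f)) = dot f (prj κ₁ (prj κ₂ f)) := by
    rw [hcomm f, dot_prj_prj, ← hcomm f]
  rw [h1, ← h3, ← h2]
  exact dot_self_nonneg _

end Commute

section Three

variable {D : Type*} [Fintype D]

/-- The spectral statement for `3`-row tables: the operator `E_0 + E_1 + E_2`
(`E_i` = average given row `i`) has no eigenvalue in `(2, 3)` and none above `3`. -/
def ThreeRowSpec (ρ : Fin 3 → ℕ) (γ : D → ℕ) : Prop :=
  ∀ (F : Tables ρ γ → ℝ) (μ : ℝ), F ≠ 0 →
    (∀ x, ∑ i, avg (fun y : Tables ρ γ => y.1 i) F x = μ * F x) → μ ≤ 2 ∨ μ = 3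

/-- The operator `E_0 + E_1 + E_2` as a linear map. -/
noncomputable def sumAvg {Y K : Type*} [Fintype Y] (κ : Fin 3 → Y → K) : (Y → ℝ) →ₗ[ℝ] (Y → ℝ) where
  toFun f := fun y => ∑ i, avg (κ i) f y
  map_add' f g := by
    funext y
    simp only [avg_add, Pi.add_apply, Finset.sum_add_distrib]
  map_smul' a f := by
    funext y
    simp only [avg_smul, Pi.smul_apply, smul_eq_mul, RingHom.id_apply, Finset.mul_sum]

theorem three_window {Y K : Type*} [Fintype Y] (ρ : Fin 3 → ℕ) (γ : D → ℕ)
    (hspec : ThreeRowSpec ρ γ) (e : Y ≃ Tables ρ γ)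
    (κ : Fin 3 → Y → K) (hκ : ∀ i y y', κ i y = κ i y' ↔ (e y).1 i = (e y').1 i) (f : Y → ℝ) :
    dot f (fun y => ∑ i, prj (κ i) f y) ≤
      dot (fun y => ∑ i, prj (κ i) f y) (fun y => ∑ i, prj (κ i) f y) := by
  classical
  set T := sumAvg κ with hT
  have hsym : ∀ f g, dot (T f) g = dot f (T g) := by
    intro f g
    have hT1 : ∀ f : Y → ℝ, T f = avg (κ 0) f + avg (κ 1) f + avg (κ 2) f := by
      intro f
      funext y
      simp [hT, sumAvg, Fin.sum_univ_three]
    rw [hT1, hT1, dot_add_left, dot_add_left, dot_add_right, dot_add_right, dot_avg_left,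
      dot_avg_left, dot_avg_left]
  have heig : ∀ (g : Y → ℝ) (μ : ℝ), g ≠ 0 → T g = μ • g → 0 ≤ (μ - 2) * (μ - 3) := by
    intro g μ hg hgμ
    have hfil : ∀ (i : Fin 3) (y : Y),
        avg (κ i) g y = avg (fun z : Tables ρ γ => z.1 i) (g ∘ e.symm) (e y) := by
      intro i y
      unfold avg
      have hs : ∑ z ∈ univ.filter (fun z => κ i z = κ i y), g z
          = ∑ z ∈ univ.filter (fun z : Tables ρ γ => z.1 i = (e y).1 i), (g ∘ e.symm) z := by
        refine Finset.sum_bij' (fun z _ => e z) (fun z _ => e.symm z) ?_ ?_ ?_ ?_ ?_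
        · intro z hz
          exact Finset.mem_filter.mpr ⟨Finset.mem_univ _, (hκ i z y).mp (Finset.mem_filter.mp hz).2⟩
        · intro z hz
          refine Finset.mem_filter.mpr ⟨Finset.mem_univ _, (hκ i _ y).mpr ?_⟩
          rw [Equiv.apply_symm_apply]
          exact (Finset.mem_filter.mp hz).2
        · intro z _; simp
        · intro z _; simp
        · intro z _; simp
      have hc : (univ.filter (fun z => κ i z = κ i y)).card
          = (univ.filter (fun z : Tables ρ γ => z.1 i = (e y).1 i)).card := by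
        refine Finset.card_bij' (fun z _ => e z) (fun z _ => e.symm z) ?_ ?_ ?_ ?_
        · intro z hz
          exact Finset.mem_filter.mpr ⟨Finset.mem_univ _, (hκ i z y).mp (Finset.mem_filter.mp hz).2⟩
        · intro z hz
          refine Finset.mem_filter.mpr ⟨Finset.mem_univ _, (hκ i _ y).mpr ?_⟩
          rw [Equiv.apply_symm_apply]
          exact (Finset.mem_filter.mp hz).2
        · intro z _; simp
        · intro z _; simp
      rw [hs, hc]
      congr!
    have hne : g ∘ e.symm ≠ 0 := by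
      intro h0
      apply hg
      funext y
      have := congrFun h0 (e y)
      simpa using this
    have := hspec (g ∘ e.symm) μ hne (fun x => by
      have h1 := congrFun hgμ (e.symm x)
      simp only [hT, sumAvg, LinearMap.coe_mk, AddHom.coe_mk, Pi.smul_apply, smul_eq_mul] at h1
      simp only [hfil, Equiv.apply_symm_apply] at h1
      simpa using h1)
    rcases this with h2 | h3
    · nlinarith
    · rw [h3]; norm_num
  have hw := eigen_window T hsym 2 3 heig f
  have hW : (fun y => ∑ i, prj (κ i) f y) = (3 : ℝ) • f - T f := by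
    funext y
    simp only [prj, Finset.sum_sub_distrib, Pi.sub_apply, Pi.smul_apply, smul_eq_mul, hT, sumAvg,
      LinearMap.coe_mk, AddHom.coe_mk]
    simp [Fin.sum_univ_three]
  rw [hW]
  have e1 : T f - (2 : ℝ) • f = -((3 : ℝ) • f - T f) + f := by
    funext y; simp; ring
  have e2 : T f - (3 : ℝ) • f = -((3 : ℝ) • f - T f) := by
    funext y; simp
  rw [e1, e2] at hw
  have e3 : ∀ u v : Y → ℝ, dot (-u + v) (-u) = dot u u - dot v u := by
    intro u v
    simp [dot, Finset.sum_neg_distrib, Finset.sum_add_distrib, add_mul, mul_neg, neg_mul]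
    ring
  rw [e3] at hw
  linarith

/-- The split of the pairing of two residuals over the fibres of a coarser label. -/
lemma dot_split {Ω K₁ K₂ L : Type*} [Fintype Ω] [DecidableEq L] (κ₁ : Ω → K₁) (κ₂ : Ω → K₂)
    (μ : Ω → L) (h₁ : ∀ x y, κ₁ x = κ₁ y → μ x = μ y) (h₂ : ∀ x y, κ₂ x = κ₂ y → μ x = μ y)
    [∀ ℓ, Fintype {x // μ x = ℓ}] (f : Ω → ℝ) :
    dot (prj κ₁ f) (prj κ₂ f) = ∑ ℓ ∈ univ.image μ,
      dot (prj (fun y : {x // μ x = ℓ} => κ₁ y.1) (fun y => f y.1))
        (prj (fun y : {x // μ x = ℓ} => κ₂ y.1) (fun y => f y.1)) := by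
  unfold dot
  rw [sum_by_label μ]
  refine Finset.sum_congr rfl fun ℓ _ => Finset.sum_congr rfl fun y _ => ?_
  simp only [prj, avg_restrict κ₁ μ h₁ ℓ f y, avg_restrict κ₂ μ h₂ ℓ f y]

/-- The three cross terms on one fibre are nonnegative, given an equivalence with a table type. -/
lemma three_cross_nonneg {Y K : Type*} [Fintype Y]
    (ρ : Fin 3 → ℕ) (γ : D → ℕ) (hspec : ThreeRowSpec ρ γ) (e : Y ≃ Tables ρ γ)
    (κ : Fin 3 → Y → K) (hκ : ∀ i y y', κ i y = κ i y' ↔ (e y).1 i = (e y').1 i) (f : Y → ℝ) :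
    0 ≤ dot (prj (κ 2) f) (prj (κ 1) f) + dot (prj (κ 2) f) (prj (κ 0) f)
      + dot (prj (κ 1) f) (prj (κ 0) f) := by
  have h := three_window ρ γ hspec e κ hκ f
  have hW : (fun y => ∑ i, prj (κ i) f y) = prj (κ 0) f + prj (κ 1) f + prj (κ 2) f := by
    funext y
    simp [Fin.sum_univ_three]
  rw [hW] at h
  simp only [dot_add_left, dot_add_right] at h
  have e0 := dot_prj_prj (κ 0) f f
  have e1 := dot_prj_prj (κ 1) f f
  have e2 := dot_prj_prj (κ 2) f f
  have c1 := dot_comm (prj (κ 0) f) (prj (κ 1) f)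
  have c2 := dot_comm (prj (κ 0) f) (prj (κ 2) f)
  have c3 := dot_comm (prj (κ 1) f) (prj (κ 2) f)
  linarith

/-- The table with the rows `p`, `q`, `s` erased. -/
def lab3 (p q s : R) (X : R → C → ℕ) : R → C → ℕ :=
  fun i j => if i = p ∨ i = q ∨ i = s then 0 else X i j

lemma lab3_eq_iff {p q s : R} {X Y : R → C → ℕ} :
    lab3 p q s X = lab3 p q s Y ↔ ∀ i, i ≠ p → i ≠ q → i ≠ s → X i = Y i := by
  constructor
  · intro h i h1 h2 h3
    funext j
    have := congrFun (congrFun h i) j
    simpa [lab3, h1, h2, h3] using this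
  · intro h
    funext i j
    by_cases hi : i = p ∨ i = q ∨ i = s
    · simp [lab3, hi]
    · push Not at hi
      simp [lab3, hi, h i hi.1 hi.2.1 hi.2.2]

lemma sum_triple {p q s : R} (h1 : p ≠ q) (h2 : p ≠ s) (h3 : q ≠ s) (φ : R → ℕ) :
    ∑ i, φ i = φ p + φ q + φ s + ∑ i ∈ ((univ.erase p).erase q).erase s, φ i := by
  have e1 := Finset.add_sum_erase univ φ (Finset.mem_univ p)
  have e2 := Finset.add_sum_erase (univ.erase p) φ (a := q) (by simp [h1.symm])
  have e3 := Finset.add_sum_erase ((univ.erase p).erase q) φ (a := s) (by simp [h2.symm, h3.symm])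
  omega

lemma col_triple {p q s : R} (h1 : p ≠ q) (h2 : p ≠ s) (h3 : q ≠ s) {x y : R → C → ℕ}
    (hx : IsTable r c x) (hy : IsTable r c y) (h : ∀ i, i ≠ p → i ≠ q → i ≠ s → x i = y i) (j : C) :
    x p j + x q j + x s j = y p j + y q j + y s j := by
  have e1 := hx.2 j
  have e2 := hy.2 j
  rw [sum_triple h1 h2 h3] at e1 e2
  have e3 : ∑ i ∈ ((univ.erase p).erase q).erase s, x i j =
      ∑ i ∈ ((univ.erase p).erase q).erase s, y i j := by
    refine Finset.sum_congr rfl (fun i hi => ?_)
    simp only [Finset.mem_erase, Finset.mem_univ, and_true] at hi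
    rw [h i hi.2.2 hi.2.1 hi.1]
  omega

lemma lab_iff_row {p q s : R} (h1 : p ≠ q) (h2 : p ≠ s) {y y' : R → C → ℕ}
    (h : ∀ i, i ≠ p → i ≠ q → i ≠ s → y i = y' i) :
    lab q s y = lab q s y' ↔ y p = y' p := by
  rw [lab_eq_iff]
  constructor
  · intro h4
    exact h4 p h1 h2
  · intro h4 i hi1 hi2
    by_cases hi : i = p
    · rw [hi]; exact h4
    · exact h i hi hi1 hi2

/-- The three cross terms of a triple of rows are nonnegative. -/
theorem overlap_nonneg {p q s : R} (h1 : p ≠ q) (h2 : p ≠ s) (h3 : q ≠ s)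
    (hgood : ∀ γ : C → ℕ, ThreeRowSpec ![r p, r q, r s] γ) (f : Tables r c → ℝ) :
    0 ≤ dot (prj (tlab r c p q) f) (prj (tlab r c p s) f) +
        dot (prj (tlab r c p q) f) (prj (tlab r c q s) f) +
        dot (prj (tlab r c p s) f) (prj (tlab r c q s) f) := by
  classical
  let μ : Tables r c → R → C → ℕ := fun X => lab3 p q s X.1
  have href : ∀ a b : R, (a = p ∨ a = q ∨ a = s) → (b = p ∨ b = q ∨ b = s) →
      ∀ x y : Tables r c, tlab r c a b x = tlab r c a b y → μ x = μ y := by
    intro a b ha hb x y hxy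
    refine lab3_eq_iff.mpr (fun i hi1 hi2 hi3 => ?_)
    refine lab_eq_iff.mp hxy i ?_ ?_
    · rcases ha with rfl | rfl | rfl <;> assumption
    · rcases hb with rfl | rfl | rfl <;> assumption
  rw [dot_split _ _ μ (href p q (by simp) (by simp)) (href p s (by simp) (by simp)) f,
    dot_split _ _ μ (href p q (by simp) (by simp)) (href q s (by simp) (by simp)) f,
    dot_split _ _ μ (href p s (by simp) (by simp)) (href q s (by simp) (by simp)) f,
    ← Finset.sum_add_distrib, ← Finset.sum_add_distrib]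
  refine Finset.sum_nonneg fun ℓ hℓ => ?_
  obtain ⟨X₀, -, hX₀⟩ := Finset.mem_image.mp hℓ
  subst hX₀
  let γ : C → ℕ := fun j => X₀.1 p j + X₀.1 q j + X₀.1 s j
  let Y := {x : Tables r c // μ x = μ X₀}
  have hag : ∀ y y' : Y, ∀ i, i ≠ p → i ≠ q → i ≠ s → y.1.1 i = y'.1.1 i := by
    intro y y' i a1 a2 a3
    exact lab3_eq_iff.mp (y.2.trans y'.2.symm) i a1 a2 a3
  have hmarg : ∀ y : Y, IsTable ![r p, r q, r s] γ (fun (t : Fin 3) j => y.1.1 (![p, q, s] t) j) := by
    intro y
    refine ⟨fun t => ?_, fun j => ?_⟩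
    · fin_cases t
      · exact y.1.2.1 p
      · exact y.1.2.1 q
      · exact y.1.2.1 s
    · rw [Fin.sum_univ_three]
      have := col_triple h1 h2 h3 y.1.2 X₀.2 (fun i a1 a2 a3 => lab3_eq_iff.mp y.2 i a1 a2 a3) j
      simpa [γ] using this
  let ef : Y → Tables ![r p, r q, r s] γ := fun y => ⟨fun t j => y.1.1 (![p, q, s] t) j, hmarg y⟩
  have hrow : ∀ y y' : Y, ef y = ef y' → y.1.1 p = y'.1.1 p ∧ y.1.1 q = y'.1.1 q ∧ y.1.1 s = y'.1.1 s := by
    intro y y' h
    have e1 := congrArg Subtype.val h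
    refine ⟨funext fun j => ?_, funext fun j => ?_, funext fun j => ?_⟩
    · exact congrFun (congrFun e1 0) j
    · exact congrFun (congrFun e1 1) j
    · exact congrFun (congrFun e1 2) j
  have hinj : Function.Injective ef := by
    intro y y' h
    obtain ⟨e1, e2, e3⟩ := hrow y y' h
    apply Subtype.ext
    apply Subtype.ext
    funext i
    by_cases a1 : i = p
    · rw [a1, e1]
    by_cases a2 : i = q
    · rw [a2, e2]
    by_cases a3 : i = s
    · rw [a3, e3]
    exact hag y y' i a1 a2 a3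
  have hsurj : Function.Surjective ef := by
    intro T
    let X : R → C → ℕ := fun i =>
      if i = p then T.1 0 else if i = q then T.1 1 else if i = s then T.1 2 else X₀.1 i
    have hXp : X p = T.1 0 := by simp [X]
    have hXq : X q = T.1 1 := by simp [X, h1.symm]
    have hXs : X s = T.1 2 := by simp [X, h2.symm, h3.symm]
    have hXo : ∀ i, i ≠ p → i ≠ q → i ≠ s → X i = X₀.1 i := by
      intro i a1 a2 a3
      simp [X, a1, a2, a3]
    have hXt : IsTable r c X := by
      refine ⟨fun i => ?_, fun j => ?_⟩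
      · by_cases a1 : i = p
        · rw [a1, hXp]; exact T.2.1 0
        by_cases a2 : i = q
        · rw [a2, hXq]; exact T.2.1 1
        by_cases a3 : i = s
        · rw [a3, hXs]; exact T.2.1 2
        rw [hXo i a1 a2 a3]
        exact X₀.2.1 i
      · have e0 := X₀.2.2 j
        rw [sum_triple h1 h2 h3] at e0
        rw [sum_triple h1 h2 h3, hXp, hXq, hXs]
        have e1 := T.2.2 j
        rw [Fin.sum_univ_three] at e1
        have e2 : ∑ i ∈ ((univ.erase p).erase q).erase s, X i j =
            ∑ i ∈ ((univ.erase p).erase q).erase s, X₀.1 i j := by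
          refine Finset.sum_congr rfl (fun i hi => ?_)
          simp only [Finset.mem_erase, Finset.mem_univ, and_true] at hi
          rw [hXo i hi.2.2 hi.2.1 hi.1]
        have e3 : γ j = X₀.1 p j + X₀.1 q j + X₀.1 s j := rfl
        omega
    have hXμ : μ ⟨X, hXt⟩ = μ X₀ := lab3_eq_iff.mpr hXo
    refine ⟨⟨⟨X, hXt⟩, hXμ⟩, ?_⟩
    apply Subtype.ext
    funext t j
    fin_cases t
    · exact congrFun hXp j
    · exact congrFun hXq j
    · exact congrFun hXs j
  let e : Y ≃ Tables ![r p, r q, r s] γ := Equiv.ofBijective ef ⟨hinj, hsurj⟩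
  let κ : Fin 3 → Y → R → C → ℕ :=
    ![fun y => tlab r c q s y.1, fun y => tlab r c p s y.1, fun y => tlab r c p q y.1]
  have hκ : ∀ i y y', κ i y = κ i y' ↔ (e y).1 i = (e y').1 i := by
    intro i y y'
    have ha := hag y y'
    fin_cases i
    · exact lab_iff_row h1 h2 ha
    · exact lab_iff_row h1.symm h3 (fun i a1 a2 a3 => ha i a2 a1 a3)
    · exact lab_iff_row h2.symm h3.symm (fun i a1 a2 a3 => ha i a2 a3 a1)
  have := three_cross_nonneg _ γ (hgood γ) e κ hκ (fun y : Y => f y.1)
  exact this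

end Three

end Vale.Agent.P328
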